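import Vale.Agent.P073.R2.H268.Main

/-!
# P073: triangular homeomorphisms are monotone in the coordinates
-/

namespace Vale.Agent.P073.R2.H268

open MeasureTheory Set Filter Topology Metric Vale.Agent.P073.St
open scoped ContDiff ENNReal

variable {Ω Λ : Set V} {f : V → V}

/-- on each cube in `Ω`, the component `j` depends only on the coordinates up to `j` -/
def DepCube (Ω : Set V) (f : V → V) : Prop :=
  ∀ (a : V) (r : ℝ), closedBall a r ⊆ Ω → DepBelow 3 (closedBall a r) f

theorem depCube_of_dep (hd : DepBelow 3 Ω f) : DepCube Ω f :=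
  fun _ _ hs j hj x hx y hy => hd j hj x (hs hx) y (hs hy)

/-- a homeomorphism between open sets is open -/
theorem open_at (hf : St.IsHomeo Ω Λ f) (hΛ : IsOpen Λ) {z : V} (hz : z ∈ Ω) {ρ : ℝ}
    (hρ : 0 < ρ) : ∀ᶠ y in 𝓝 (f z), ∃ x ∈ Ω, x ∈ closedBall z ρ ∧ f x = y := by
  obtain ⟨h, ⟨h1, h2⟩, h3, h4⟩ := hf
  obtain ⟨hfz, hhz⟩ := h1 z hz
  have hc : Tendsto h (𝓝 (f z)) (𝓝 z) := by
    have := h4.continuousAt (hΛ.mem_nhds hfz)
    rwa [ContinuousAt, hhz] at this
  filter_upwards [hΛ.mem_nhds hfz, hc.eventually (closedBall_mem_nhds z hρ)] with y hy hy'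
  exact ⟨h y, (h2 y hy).1, hy', (h2 y hy).2⟩

theorem exists_shift (hf : St.IsHomeo Ω Λ f) (hΛ : IsOpen Λ) {z : V} (hz : z ∈ Ω) {ρ : ℝ}
    (hρ : 0 < ρ) (k : Fin 3) : ∃ η : ℝ, 0 < η ∧
      (∃ x ∈ Ω, x ∈ closedBall z ρ ∧ f x k = f z k + η ∧ ∀ j, j ≠ k → f x j = f z j) ∧
      ∃ x ∈ Ω, x ∈ closedBall z ρ ∧ f x k = f z k - η ∧ ∀ j, j ≠ k → f x j = f z j := by
  have hc : Tendsto (fun η : ℝ => Function.update (f z) k (f z k + η)) (𝓝 0) (𝓝 (f z)) := by
    have h1 : Continuous fun η : ℝ => Function.update (f z) k (f z k + η) :=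
      (continuous_updr k (f z)).comp (continuous_const.add continuous_id)
    have h2 := h1.tendsto 0
    rwa [add_zero, Function.update_eq_self] at h2
  obtain ⟨r, hr, h⟩ := Metric.eventually_nhds_iff.1 (hc.eventually (open_at hf hΛ hz hρ))
  have hab : |r / 2| < r := by
    rw [abs_of_pos (by positivity)]
    linarith
  refine ⟨r / 2, by positivity, ?_, ?_⟩
  · obtain ⟨x, hx, hx', e⟩ := h (y := r / 2) (by rw [Real.dist_eq, sub_zero]; exact hab)
    refine ⟨x, hx, hx', ?_, fun j hj => ?_⟩
    · rw [e, Function.update_self]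
    · rw [e, Function.update_of_ne hj]
  · obtain ⟨x, hx, hx', e⟩ := h (y := -(r / 2))
      (by rw [Real.dist_eq, sub_zero, abs_neg]; exact hab)
    refine ⟨x, hx, hx', ?_, fun j hj => ?_⟩
    · rw [e, Function.update_self, sub_eq_add_neg]
    · rw [e, Function.update_of_ne hj]

theorem line_inj (hf : St.IsHomeo Ω Λ f) (hΛ : IsOpen Λ) (hd : DepCube Ω f)
    (hΩ : IsOpen Ω) (hfc : ContinuousOn f Ω) (k : Fin 3) :
    ∀ (a : V) (r : ℝ), 0 < r → closedBall a r ⊆ Ω → ∀ x ∈ closedBall a r,
      ∀ y ∈ closedBall a r, (∀ j < k, x j = y j) → f x k = f y k → x k = y k := by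
  induction k using WellFoundedLT.induction with
  | ind k ih =>
    intro a r hr hsub
    have hIcc : ∀ s ∈ Icc (a k - r) (a k + r), |s - a k| ≤ r := fun s hs => by
      rw [abs_le]; constructor <;> linarith [hs.1, hs.2]
    have hcoord : ∀ x ∈ closedBall a r, ∀ j, |x j - a j| ≤ r := fun x hx j => by
      rw [← Real.dist_eq]
      exact (dist_pi_le_iff hr.le).1 hx j
    have hmemI : ∀ x ∈ closedBall a r, x k ∈ Icc (a k - r) (a k + r) := fun x hx => by
      have h1 := abs_le.1 (hcoord x hx k)
      exact ⟨by linarith [h1.1], by linarith [h1.2]⟩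
    have key : ∀ x ∈ closedBall a r, ∀ s ∈ Icc (a k - r) (a k + r),
        ∀ s' ∈ Icc (a k - r) (a k + r), s < s' →
        f (Function.update x k s) k = f (Function.update x k s') k → False := by
      intro x hx s hs s' hs' hlt heq
      have hup : ∀ c ∈ Icc (a k - r) (a k + r), Function.update x k c ∈ closedBall a r :=
        fun c hc => upd_mem hr.le (fun j _ => hcoord x hx j) (hIcc c hc)
      have hφc : ContinuousOn (fun c => f (Function.update x k c) k) (Icc s s') := by
        have h1 : ContinuousOn (fun y => f y k) Ω := (continuous_apply k).comp_continuousOn hfc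
        exact h1.comp (continuous_updr k x).continuousOn fun c hc =>
          hsub (hup c ⟨hs.1.trans hc.1, hc.2.trans hs'.2⟩)
      obtain ⟨c, hc, hext⟩ := exists_isLocalExtr_Ioo hlt hφc heq
      have hcI : c ∈ Icc (a k - r) (a k + r) := ⟨hs.1.trans hc.1.le, hc.2.le.trans hs'.2⟩
      set z : V := Function.update x k c with hz
      have hzΩ : z ∈ Ω := hsub (hup c hcI)
      have hzk : z k = c := by rw [hz, Function.update_self]
      -- all nearby points
      have near : ∀ ρ : ℝ, 0 < ρ → closedBall z ρ ⊆ Ω → ∀ w ∈ Ω, w ∈ closedBall z ρ →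
          (∀ j, j ≠ k → f w j = f z j) → |w k - c| ≤ ρ ∧
            f w k = f (Function.update x k (w k)) k := by
        intro ρ hρ hρΩ w hw hwz hj
        have hcw : ∀ j, |w j - z j| ≤ ρ := fun j => by
          rw [← Real.dist_eq]
          exact (dist_pi_le_iff hρ.le).1 hwz j
        have h1 : ∀ j < k, w j = z j := by
          intro j
          induction j using WellFoundedLT.induction with
          | ind j ihj =>
            intro hjk
            exact ih j hjk z ρ hρ hρΩ w hwz z (mem_closedBall_self hρ.le)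
              (fun i hi => ihj i hi (hi.trans hjk)) (hj j hjk.ne)
        have h2 : Function.update x k (w k) = Function.update z k (w k) := by
          rw [hz, Function.update_idem]
        have h3 : Function.update x k (w k) ∈ closedBall z ρ := by
          rw [h2]
          exact upd_mem hρ.le (fun j _ => by rw [sub_self, abs_zero]; exact hρ.le) (hcw k)
        refine ⟨by rw [← hzk]; exact hcw k, hd z ρ hρΩ k k.isLt w hwz _ h3 fun i hi => ?_⟩
        rcases hi.lt_or_eq with hlt | heq
        · rw [Function.update_of_ne hlt.ne, h1 i hlt, hz, Function.update_of_ne hlt.ne]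
        · rw [heq, Function.update_self]
      obtain ⟨δ, hδ, hδΩ⟩ := nhds_basis_closedBall.mem_iff.1 (hΩ.mem_nhds hzΩ)
      rcases hext with hmin | hmax
      · obtain ⟨ρ₁, hρ₁, h1⟩ := Metric.eventually_nhds_iff.1 hmin
        have hρ : 0 < min δ (ρ₁ / 2) := lt_min hδ (by positivity)
        have hρΩ : closedBall z (min δ (ρ₁ / 2)) ⊆ Ω :=
          (closedBall_subset_closedBall (min_le_left _ _)).trans hδΩ
        obtain ⟨η, hη, -, w, hw, hwz, e1, e2⟩ := exists_shift hf hΛ hzΩ hρ k
        obtain ⟨g1, g2⟩ := near _ hρ hρΩ w hw hwz e2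
        have h2 := h1 (y := w k) (by
          rw [Real.dist_eq]
          have := min_le_right δ (ρ₁ / 2)
          linarith)
        dsimp only at h2
        rw [← g2, e1] at h2
        linarith
      · obtain ⟨ρ₁, hρ₁, h1⟩ := Metric.eventually_nhds_iff.1 hmax
        have hρ : 0 < min δ (ρ₁ / 2) := lt_min hδ (by positivity)
        have hρΩ : closedBall z (min δ (ρ₁ / 2)) ⊆ Ω :=
          (closedBall_subset_closedBall (min_le_left _ _)).trans hδΩ
        obtain ⟨η, hη, ⟨w, hw, hwz, e1, e2⟩, -⟩ := exists_shift hf hΛ hzΩ hρ k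
        obtain ⟨g1, g2⟩ := near _ hρ hρΩ w hw hwz e2
        have h2 := h1 (y := w k) (by
          rw [Real.dist_eq]
          have := min_le_right δ (ρ₁ / 2)
          linarith)
        dsimp only at h2
        rw [← g2, e1] at h2
        linarith
    intro x hx y hy hxy hf'
    have e1 : f y k = f (Function.update x k (y k)) k := by
      refine hd a r hsub k k.isLt y hy _ (upd_mem hr.le (fun j _ => hcoord x hx j)
        (hIcc _ (hmemI y hy))) fun i hi => ?_
      rcases hi.lt_or_eq with hlt | heq
      · rw [Function.update_of_ne hlt.ne, hxy i hlt]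
      · rw [heq, Function.update_self]
    have e2 : f x k = f (Function.update x k (x k)) k := by rw [Function.update_eq_self]
    rw [e1, e2] at hf'
    by_contra hne
    rcases lt_or_gt_of_ne hne with h | h
    · exact key x hx _ (hmemI x hx) _ (hmemI y hy) h hf'
    · exact key x hx _ (hmemI y hy) _ (hmemI x hx) h hf'.symm

/-- `f k` does not decrease in the variable `k` on `Q` -/
def MonoOn (Q : Set V) (f : V → V) (k : Fin 3) : Prop :=
  ∀ x ∈ Q, ∀ y ∈ Q, (∀ j, j ≠ k → x j = y j) → x k ≤ y k → f x k ≤ f y k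

/-- `f k` does not increase in the variable `k` on `Q` -/
def AntiOn (Q : Set V) (f : V → V) (k : Fin 3) : Prop :=
  ∀ x ∈ Q, ∀ y ∈ Q, (∀ j, j ≠ k → x j = y j) → x k ≤ y k → f y k ≤ f x k

theorem cube_sign (hf : St.IsHomeo Ω Λ f) (hΛ : IsOpen Λ) (hd : DepCube Ω f)
    (hΩ : IsOpen Ω) (hfc : ContinuousOn f Ω) (k : Fin 3) {a : V} {r : ℝ} (hr : 0 < r)
    (hsub : closedBall a r ⊆ Ω) : MonoOn (closedBall a r) f k ∨ AntiOn (closedBall a r) f k := by
  have hinj := line_inj hf hΛ hd hΩ hfc k a r hr hsub
  have hIcc : ∀ s ∈ Icc (a k - r) (a k + r), |s - a k| ≤ r := fun s hs => by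
    rw [abs_le]; constructor <;> linarith [hs.1, hs.2]
  have hcoord : ∀ x ∈ closedBall a r, ∀ j, |x j - a j| ≤ r := fun x hx j => by
    rw [← Real.dist_eq]
    exact (dist_pi_le_iff hr.le).1 hx j
  have hmemI : ∀ x ∈ closedBall a r, x k ∈ Icc (a k - r) (a k + r) := fun x hx => by
    have h1 := abs_le.1 (hcoord x hx k)
    exact ⟨by linarith [h1.1], by linarith [h1.2]⟩
  have hup : ∀ x ∈ closedBall a r, ∀ c ∈ Icc (a k - r) (a k + r),
      Function.update x k c ∈ closedBall a r :=
    fun x hx c hc => upd_mem hr.le (fun j _ => hcoord x hx j) (hIcc c hc)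
  have hfk : ContinuousOn (fun y => f y k) Ω := (continuous_apply k).comp_continuousOn hfc
  have hab : a k - r ≤ a k + r := by linarith
  have hlo : a k - r ∈ Icc (a k - r) (a k + r) := ⟨le_rfl, hab⟩
  have hhi : a k + r ∈ Icc (a k - r) (a k + r) := ⟨hab, le_rfl⟩
  -- on each line
  have hline : ∀ x ∈ closedBall a r,
      StrictMonoOn (fun c => f (Function.update x k c) k) (Icc (a k - r) (a k + r)) ∨
      StrictAntiOn (fun c => f (Function.update x k c) k) (Icc (a k - r) (a k + r)) := by
    intro x hx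
    refine ContinuousOn.strictMonoOn_of_injOn_Icc' hab ?_ ?_
    · exact hfk.comp (continuous_updr k x).continuousOn fun c hc => hsub (hup x hx c hc)
    · intro c hc c' hc' h
      have h1 := hinj _ (hup x hx c hc) _ (hup x hx c' hc')
        (fun j hj => by rw [Function.update_of_ne hj.ne, Function.update_of_ne hj.ne]) h
      rwa [Function.update_self, Function.update_self] at h1
  -- the end points
  set D : V → ℝ := fun x => f (Function.update x k (a k + r)) k -
    f (Function.update x k (a k - r)) k with hD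
  have hDc : ContinuousOn D (closedBall a r) := by
    have h1 : ∀ c ∈ Icc (a k - r) (a k + r),
        ContinuousOn (fun x : V => f (Function.update x k c) k) (closedBall a r) := by
      intro c hc
      refine hfk.comp ?_ fun x hx => hsub (hup x hx c hc)
      exact ((continuous_upd k).comp (continuous_id.prodMk continuous_const)).continuousOn
    exact (h1 _ hhi).sub (h1 _ hlo)
  have hlt : a k - r < a k + r := by linarith
  have hD0 : ∀ x ∈ closedBall a r, D x ≠ 0 := by
    intro x hx h0
    rcases hline x hx with h | h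
    · have h1 := h hlo hhi hlt
      dsimp only at h1
      rw [hD] at h0
      dsimp only at h0
      linarith
    · have h1 := h hlo hhi hlt
      dsimp only at h1
      rw [hD] at h0
      dsimp only at h0
      linarith
  have hpc : IsPreconnected (closedBall a r) := (convex_closedBall a r).isPreconnected
  have haa : a ∈ closedBall a r := mem_closedBall_self hr.le
  have hrepr : ∀ x ∈ closedBall a r, ∀ y ∈ closedBall a r, (∀ j, j ≠ k → x j = y j) →
      y = Function.update x k (y k) := by
    intro x _ y _ h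
    funext j
    by_cases hj : j = k
    · rw [hj, Function.update_self]
    · rw [Function.update_of_ne hj, h j hj]
  rcases lt_or_gt_of_ne (hD0 a haa) with hneg | hpos
  · right
    have hall : ∀ x ∈ closedBall a r, D x < 0 := by
      intro x hx
      by_contra hc
      obtain ⟨z, hz, hz'⟩ := hpc.intermediate_value haa hx hDc
        (show (0 : ℝ) ∈ Icc (D a) (D x) from ⟨hneg.le, not_lt.1 hc⟩)
      exact hD0 z hz hz'
    intro x hx y hy hxy hle
    rcases hline x hx with h | h
    · have h1 := h hlo hhi hlt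
      have h2 := hall x hx
      rw [hD] at h2
      dsimp only at h1 h2
      linarith
    · have h1 := h.antitoneOn (hmemI x hx) (hmemI y hy) hle
      rwa [Function.update_eq_self, ← hrepr x hx y hy hxy] at h1
  · left
    have hall : ∀ x ∈ closedBall a r, 0 < D x := by
      intro x hx
      by_contra hc
      obtain ⟨z, hz, hz'⟩ := hpc.intermediate_value hx haa hDc
        (show (0 : ℝ) ∈ Icc (D x) (D a) from ⟨not_lt.1 hc, hpos.le⟩)
      exact hD0 z hz hz'
    intro x hx y hy hxy hle
    rcases hline x hx with h | h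
    · have h1 := h.monotoneOn (hmemI x hx) (hmemI y hy) hle
      rwa [Function.update_eq_self, ← hrepr x hx y hy hxy] at h1
    · have h1 := h hlo hhi hlt
      have h2 := hall x hx
      rw [hD] at h2
      dsimp only at h1 h2
      linarith

theorem global_sign (hf : St.IsHomeo Ω Λ f) (hΛ : IsOpen Λ) (hd : DepCube Ω f)
    (hΩ : IsOpen Ω) (hΩc : IsPreconnected Ω) (hfc : ContinuousOn f Ω) (k : Fin 3) :
    (∀ a ∈ Ω, ∃ r : ℝ, 0 < r ∧ MonoOn (closedBall a r) f k) ∨
      ∀ a ∈ Ω, ∃ r : ℝ, 0 < r ∧ AntiOn (closedBall a r) f k := by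
  have hop : ∀ P : Set V → Prop, (∀ A B, A ⊆ B → P B → P A) →
      IsOpen {a : V | ∃ r : ℝ, 0 < r ∧ closedBall a r ⊆ Ω ∧ P (closedBall a r)} := by
    intro P hP
    rw [isOpen_iff_mem_nhds]
    rintro a ⟨r, hr, h1, h2⟩
    filter_upwards [closedBall_mem_nhds a (half_pos hr)] with b hb
    have h3 : closedBall b (r / 2) ⊆ closedBall a r :=
      closedBall_subset_closedBall' (by rw [mem_closedBall] at hb; linarith)
    exact ⟨r / 2, half_pos hr, h3.trans h1, hP _ _ h3 h2⟩
  have hM := hop (fun Q => MonoOn Q f k) fun A B hAB h x hx y hy => h x (hAB hx) y (hAB hy)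
  have hA := hop (fun Q => AntiOn Q f k) fun A B hAB h x hx y hy => h x (hAB hx) y (hAB hy)
  have hcov : Ω ⊆ {a : V | ∃ r : ℝ, 0 < r ∧ closedBall a r ⊆ Ω ∧ MonoOn (closedBall a r) f k} ∪
      {a : V | ∃ r : ℝ, 0 < r ∧ closedBall a r ⊆ Ω ∧ AntiOn (closedBall a r) f k} := by
    intro a ha
    obtain ⟨r, hr, hsub⟩ := nhds_basis_closedBall.mem_iff.1 (hΩ.mem_nhds ha)
    rcases cube_sign hf hΛ hd hΩ hfc k hr hsub with h | h
    · exact Or.inl ⟨r, hr, hsub, h⟩
    · exact Or.inr ⟨r, hr, hsub, h⟩
  by_cases h1 : (Ω ∩ {a : V | ∃ r : ℝ, 0 < r ∧ closedBall a r ⊆ Ω ∧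
      MonoOn (closedBall a r) f k}).Nonempty
  · by_cases h2 : (Ω ∩ {a : V | ∃ r : ℝ, 0 < r ∧ closedBall a r ⊆ Ω ∧
        AntiOn (closedBall a r) f k}).Nonempty
    · exfalso
      obtain ⟨a, ha, ⟨r, hr, hr1, hr2⟩, r', hr', hr1', hr2'⟩ := hΩc _ _ hM hA hcov h1 h2
      -- a small step in the variable `k`
      set ρ : ℝ := min r r' with hρ
      have hρ0 : 0 < ρ := lt_min hr hr'
      have hb : Function.update a k (a k + ρ) ∈ closedBall a ρ :=
        upd_mem hρ0.le (fun j _ => by rw [sub_self, abs_zero]; exact hρ0.le)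
          (by rw [add_sub_cancel_left, abs_of_pos hρ0])
      have hb1 := closedBall_subset_closedBall (min_le_left r r') hb
      have hb2 := closedBall_subset_closedBall (min_le_right r r') hb
      have hle : a k ≤ Function.update a k (a k + ρ) k := by
        rw [Function.update_self]
        linarith
      have hne : ∀ j, j ≠ k → a j = Function.update a k (a k + ρ) j := fun j hj => by
        rw [Function.update_of_ne hj]
      have e1 := hr2 a (mem_closedBall_self hr.le) _ hb1 hne hle
      have e2 := hr2' a (mem_closedBall_self hr'.le) _ hb2 hne hle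
      have e3 := line_inj hf hΛ hd hΩ hfc k a r hr hr1 a (mem_closedBall_self hr.le) _ hb1
        (fun j hj => hne j hj.ne) (le_antisymm e1 e2)
      rw [Function.update_self] at e3
      linarith
    · left
      intro a ha
      rcases hcov ha with ⟨r, hr, -, h⟩ | h
      · exact ⟨r, hr, h⟩
      · exact absurd ⟨a, ha, h⟩ h2
  · right
    intro a ha
    rcases hcov ha with h | ⟨r, hr, -, h⟩
    · exact absurd ⟨a, ha, h⟩ h1
    · exact ⟨r, hr, h⟩

end Vale.Agent.P073.R2.H268
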