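import Vale.Agent.P073.R2.H268.Top
import Vale.Agent.P073.R2.H268.Smooth
import Vale.Agent.P073.MM.H694.Pert2

/-!
# P073: triangular homeomorphisms, the new component
-/

namespace Vale.Agent.P073.R2.H268

open MeasureTheory Set Filter Topology Metric Vale.Agent.P073.St Vale.Agent.P073.AB
open Vale.Agent.P073.SQ (ev)
open Vale.Agent.P073.MM Vale.Agent.P073.MM.H694
open scoped ContDiff ENNReal

variable {p : ℝ} {Ω Λ : Set V}

/-- the coordinate `j` -/
noncomputable def pr (j : Fin 3) : V →L[ℝ] ℝ := ContinuousLinearMap.proj j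

theorem pr_apply (j : Fin 3) (v : V) : pr j v = v j := rfl

theorem inv_fderiv {Ω O : Set V} (hΩ : IsOpen Ω) (hO : IsOpen O) {G h : V → V}
    (hG : ContDiffOn ℝ ∞ G Ω) (hh : ContDiffOn ℝ ∞ h O) (hi : St.IsInv Ω O G h) {x : V}
    (hx : x ∈ Ω) : (∀ v, fderiv ℝ h (G x) (fderiv ℝ G x v) = v) ∧
      ∀ v, fderiv ℝ G x (fderiv ℝ h (G x) v) = v := by
  have hGx : G x ∈ O := (hi.1 x hx).1
  have hhx : h (G x) = x := (hi.1 x hx).2
  have d1 := diffeo_diff hΩ hG hx
  have d2 := diffeo_diff hO hh hGx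
  constructor
  · intro v
    have e1 : (fun y => h (G y)) =ᶠ[𝓝 x] id := by
      filter_upwards [hΩ.mem_nhds hx] with y hy using (hi.1 y hy).2
    have e2 : HasFDerivAt (fun y => h (G y)) ((fderiv ℝ h (G x)).comp (fderiv ℝ G x)) x :=
      d2.comp x d1
    have e3 := (hasFDerivAt_id (𝕜 := ℝ) x).congr_of_eventuallyEq e1
    have e5 := congrArg (fun L : V →L[ℝ] V => L v) (e2.unique e3)
    exact e5
  · intro v
    have e1 : (fun y => G (h y)) =ᶠ[𝓝 (G x)] id := by
      filter_upwards [hO.mem_nhds hGx] with y hy using (hi.2 y hy).2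
    have d1' : HasFDerivAt G (fderiv ℝ G x) (h (G x)) := by
      rw [hhx]
      exact d1
    have e2 : HasFDerivAt (fun y => G (h y)) ((fderiv ℝ G x).comp (fderiv ℝ h (G x))) (G x) :=
      d1'.comp (G x) d2
    have e3 := (hasFDerivAt_id (𝕜 := ℝ) (G x)).congr_of_eventuallyEq e1
    have e5 := congrArg (fun L : V →L[ℝ] V => L v) (e2.unique e3)
    exact e5

/-- replacing the component `k` of `M` -/
noncomputable def rep (k : Fin 3) (M : V → V) (u : V → ℝ) (x : V) : V :=
  Function.update (M x) k (u x)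

theorem rep_self {k : Fin 3} {M : V → V} {u : V → ℝ} {x : V} : rep k M u x k = u x := by
  unfold rep
  rw [Function.update_self]

theorem rep_ne {k j : Fin 3} (h : j ≠ k) {M : V → V} {u : V → ℝ} {x : V} :
    rep k M u x j = M x j := by
  unfold rep
  rw [Function.update_of_ne h]

theorem rep_smooth {k : Fin 3} {M : V → V} {u : V → ℝ} (hM : ContDiffOn ℝ ∞ M Ω)
    (hu : ContDiffOn ℝ ∞ u Ω) : ContDiffOn ℝ ∞ (rep k M u) Ω := by
  rw [contDiffOn_pi]
  intro j
  by_cases h : j = k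
  · subst h
    have h1 : (fun x => rep j M u x j) = u := funext fun x => rep_self
    rw [h1]
    exact hu
  · have h1 : (fun x => rep k M u x j) = fun x => M x j := funext fun x => rep_ne h
    rw [h1]
    exact contDiffOn_pi.1 hM j

theorem rep_fderiv {k : Fin 3} {M : V → V} {u : V → ℝ} {x : V} {D : V →L[ℝ] V}
    {d : V →L[ℝ] ℝ} (hM : HasFDerivAt M D x) (hu : HasFDerivAt u d x) :
    HasFDerivAt (rep k M u) (ContinuousLinearMap.pi fun j => if j = k then d else (pr j).comp D)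
      x := by
  rw [hasFDerivAt_pi]
  intro j
  by_cases h : j = k
  · subst h
    have h1 : (fun x => rep j M u x j) = u := funext fun x => rep_self
    rw [h1, if_pos rfl]
    exact hu
  · have h1 : (fun x => rep k M u x j) = fun x => M x j := funext fun x => rep_ne h
    rw [h1, if_neg h]
    exact hasFDerivAt_pi'.1 hM j

theorem rep_dist {k : Fin 3} {M : V → V} {u w : V → ℝ} {x : V} :
    ‖rep k M u x - rep k M w x‖ ≤ |u x - w x| := by
  rw [pi_norm_le_iff_of_nonneg (abs_nonneg _)]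
  intro j
  rw [Pi.sub_apply, Real.norm_eq_abs]
  by_cases h : j = k
  · subst h
    rw [rep_self, rep_self]
  · rw [rep_ne h, rep_ne h, sub_self, abs_zero]
    exact abs_nonneg _

theorem pi_app (L : Fin 3 → V →L[ℝ] ℝ) (v : V) (j : Fin 3) :
    ContinuousLinearMap.pi L v j = L j v := rfl

theorem pi_bound {L : Fin 3 → V →L[ℝ] ℝ} {c : ℝ} (hc : 0 ≤ c) (h : ∀ j, ‖L j‖ ≤ c) :
    ‖ContinuousLinearMap.pi L‖ ≤ c := by
  refine ContinuousLinearMap.opNorm_le_bound _ hc fun v => ?_
  rw [pi_norm_le_iff_of_nonneg (mul_nonneg hc (norm_nonneg v))]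
  intro j
  exact ((L j).le_opNorm v).trans (mul_le_mul_of_nonneg_right (h j) (norm_nonneg v))

theorem pr_norm (j : Fin 3) : ‖pr j‖ ≤ 1 := by
  refine ContinuousLinearMap.opNorm_le_bound _ zero_le_one fun v => ?_
  rw [pr_apply, one_mul]
  exact norm_le_pi_norm v j

theorem pr_comp_norm (j : Fin 3) (L : V →L[ℝ] V) : ‖(pr j).comp L‖ ≤ ‖L‖ := by
  refine (ContinuousLinearMap.opNorm_comp_le _ _).trans ?_
  have := mul_le_mul_of_nonneg_right (pr_norm j) (norm_nonneg L)
  rwa [one_mul] at this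

/-- the row differences above `k` -/
noncomputable def dd (k : ℕ) (M : V → V) (F : V → Mat) (i : Fin 3) (x : V) : ℝ :=
  if k < (i : ℕ) then ‖fderiv ℝ (fun y => M y i) x - (pr i).comp (cl (F x))‖ else 0

theorem dd_nonneg (k : ℕ) (M : V → V) (F : V → Mat) (i : Fin 3) (x : V) :
    0 ≤ dd k M F i x := by
  unfold dd
  split_ifs
  · exact norm_nonneg _
  · exact le_rfl

/-- **the new component** -/
theorem core {f₀ : V → V} {F : V → Mat} (hp : 1 ≤ p) (hΩ : IsOpen Ω)
    (hUb : Bornology.IsBounded Ω) (hfc : ContinuousOn f₀ Ω) (hF : St.IsSobolev p Ω f₀ F)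
    {k : Fin 3} (hsg : ∀ h : V, (∀ j < k, h j = 0) → 0 ≤ h k →
      ∀ᵐ y ∂(volume : Measure V), y ∈ Ω → 0 ≤ cl (F y) h k)
    {R : ℝ} (hR1 : 1 ≤ R) (hR : ∀ x ∈ Ω, ‖x‖ ≤ R) {O : Set V} (hO : IsOpen O) {M m : V → V}
    (hM : ContDiffOn ℝ ∞ M Ω) (hm : ContDiffOn ℝ ∞ m O) (hi : St.IsInv Ω O M m)
    (hMj : ∀ x, ∀ j ≤ k, M x j = x j) {Θ : Set V} (hΘ : IsOpen Θ) {n : V → V}
    (hn : St.IsInv Ω Θ (rep k M fun x => f₀ x k) n) (hVc : ContinuousOn (rep k M fun x => f₀ x k) Ω)
    (hnc : ContinuousOn n Θ) {s : V → ℝ} (hs : ContinuousOn s Ω) (hs0 : ∀ x ∈ Ω, 0 < s x)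
    {t : ℝ} (ht : 0 < t) (ht1 : t ≤ 1) :
    ∃ (u : V → ℝ) (a : V → ℝ), ContDiffOn ℝ ∞ u Ω ∧ (∀ x ∈ Ω, |u x - f₀ x k| ≤ s x) ∧
      (∀ x ∈ Ω, ∀ v, fderiv ℝ (rep k M u) x v = 0 → v = 0) ∧ (∀ x, 0 ≤ a x) ∧
      ∫⁻ x in Ω, ENNReal.ofReal (a x ^ p) ≤ ENNReal.ofReal t ∧
      ∀ x ∈ Ω, ‖fderiv ℝ u x - (pr k).comp (cl (F x))‖ ≤
        2 * a x + t * ‖cl (F x)‖ + t + ∑ i, dd k M F i x := by
  have hp0 : 0 < p := by linarith
  have hR0 : 0 < R := by linarith
  set W : V → V := rep k M fun x => f₀ x k with hW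
  have hWΘ : ∀ x ∈ Ω, W x ∈ Θ := fun x hx => (hn.1 x hx).1
  have hnm : MapsTo n Θ Ω := fun y hy => (hn.2 y hy).1
  -- the kernel direction
  set τ : V → V := fun x => fderiv ℝ m (M x) (ev k) with hτ
  have hMO : ∀ x ∈ Ω, M x ∈ O := fun x hx => (hi.1 x hx).1
  have hτc : ContinuousOn τ Ω := by
    have h1 : ContinuousOn (fderiv ℝ m) O := hm.continuousOn_fderiv_of_isOpen hO (by simp)
    exact (h1.comp hM.continuousOn hMO).clm_apply continuousOn_const
  -- the bump
  set δ : V → ℝ := fun y => min (t / (24 * R)) (s (n y) / (8 * R)) with hδ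
  have hδc : ContinuousOn δ Θ := continuousOn_const.inf ((hs.comp hnc hnm).div_const _)
  have hδ0 : ∀ y ∈ Θ, 0 < δ y := fun y hy =>
    lt_min (by positivity) (div_pos (hs0 _ (hnm hy)) (by positivity))
  obtain ⟨κ, hκs, hκ, hκ0⟩ := Vale.Agent.P073.exists_kappa hΘ hδc hδ0
  have hδt : ∀ y, δ y ≤ t / (24 * R) := fun y => min_le_left _ _
  have hδt1 : t / (24 * R) ≤ t / 24 := by
    apply div_le_div_of_nonneg_left ht.le (by norm_num)
    linarith
  have hlip := lip_of_kappa (W := Θ) hκs (fun y hy => ⟨(hκ y hy).1, by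
    have h1 := (hκ y hy).2.2.le
    have h2 := hδt y
    linarith⟩) hκ0
  set e : V → ℝ := fun x => min (s x / 8) (κ (W x) / (8 * (1 + ‖τ x‖))) with he
  have hec : ContinuousOn e Ω := (hs.div_const 8).inf
    ((hκs.continuous.comp_continuousOn hVc).div
      (continuousOn_const.mul (continuousOn_const.add hτc.norm)) fun x _ => by positivity)
  have he0 : ∀ x ∈ Ω, 0 < e x := fun x hx =>
    lt_min (by have := hs0 x hx; linarith) (div_pos (hκ _ (hWΘ x hx)).1 (by positivity))
  obtain ⟨g, hgs, hge, hgE, hgm⟩ := smooth H307.mollLp hp hΩ hUb hfc hF hec he0 ht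
  set G : V → V := rep k M fun x => g x k with hG
  set u : V → ℝ := fun x => g x k + κ (G x) * x k with hu
  have hgks : ContDiffOn ℝ ∞ (fun x => g x k) Ω := contDiffOn_pi.1 hgs k
  have hGs : ContDiffOn ℝ ∞ G Ω := rep_smooth hM hgks
  have hus : ContDiffOn ℝ ∞ u Ω :=
    hgks.add ((hκs.comp_contDiffOn hGs).mul (contDiff_apply ℝ ℝ k).contDiffOn)
  -- facts at the points
  have hgf : ∀ x ∈ Ω, |g x k - f₀ x k| ≤ e x := by
    intro x hx
    have h1 := norm_le_pi_norm (g x - f₀ x) k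
    rw [Pi.sub_apply, Real.norm_eq_abs] at h1
    exact h1.trans (hge x hx)
  have heκ : ∀ x ∈ Ω, 8 * (1 + ‖τ x‖) * e x ≤ κ (W x) := by
    intro x hx
    have h1 : e x ≤ κ (W x) / (8 * (1 + ‖τ x‖)) := min_le_right _ _
    rw [le_div_iff₀ (by positivity)] at h1
    linarith
  have hκG : ∀ x ∈ Ω, 4 * (1 + ‖τ x‖) * e x ≤ κ (G x) ∧ κ (G x) ≤ 2 * κ (W x) ∧
      0 < κ (G x) := by
    intro x hx
    have h1 := hlip (G x) (W x)
    have h2 : ‖G x - W x‖ ≤ e x := rep_dist.trans (hgf x hx)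
    have h3 := heκ x hx
    have h4 := (hκ _ (hWΘ x hx)).1
    have h5 := he0 x hx
    have h6 : 0 ≤ ‖τ x‖ * e x := mul_nonneg (norm_nonneg _) h5.le
    rw [abs_le] at h1
    refine ⟨?_, ?_, ?_⟩ <;> nlinarith [h1.1, h1.2]
  have hGΘ : ∀ x ∈ Ω, G x ∈ Θ := by
    intro x hx
    by_contra hc
    have h1 := (hκG x hx).2.2
    rw [hκ0 _ hc] at h1
    exact lt_irrefl _ h1
  have hκs' : ∀ x ∈ Ω, κ (W x) ≤ s x / (8 * R) := by
    intro x hx
    have h1 := (hκ _ (hWΘ x hx)).2.1.le.trans (min_le_right _ _)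
    rwa [(hn.1 x hx).2] at h1
  have hxk : ∀ x ∈ Ω, |x k| ≤ R := by
    intro x hx
    have h1 := norm_le_pi_norm x k
    rw [Real.norm_eq_abs] at h1
    exact h1.trans (hR x hx)
  have huf : ∀ x ∈ Ω, |u x - f₀ x k| ≤ s x := by
    intro x hx
    have h1 : u x - f₀ x k = (g x k - f₀ x k) + κ (G x) * x k := by
      rw [hu]
      ring
    rw [h1]
    refine (abs_add_le _ _).trans ?_
    rw [abs_mul, abs_of_pos (hκG x hx).2.2]
    have h2 := (hgf x hx).trans (min_le_left _ _)
    have h3 : κ (G x) * |x k| ≤ (2 * (s x / (8 * R))) * R := by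
      apply mul_le_mul ((hκG x hx).2.1.trans (by linarith [hκs' x hx])) (hxk x hx) (abs_nonneg _)
      have := hs0 x hx
      positivity
    have h4 : (2 * (s x / (8 * R))) * R = s x / 4 := by field_simp; ring
    have := hs0 x hx
    linarith
  -- derivatives
  have hMd : ∀ x ∈ Ω, HasFDerivAt M (fderiv ℝ M x) x := fun x hx => diffeo_diff hΩ hM hx
  have hgd : ∀ x ∈ Ω, HasFDerivAt (fun y => g y k) ((pr k).comp (fderiv ℝ g x)) x := fun x hx =>
    hasFDerivAt_pi'.1 (diffeo_diff hΩ hgs hx) k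
  set DG : V → V →L[ℝ] V := fun x => ContinuousLinearMap.pi fun j =>
    if j = k then (pr k).comp (fderiv ℝ g x) else (pr j).comp (fderiv ℝ M x) with hDG
  have hGd : ∀ x ∈ Ω, HasFDerivAt G (DG x) x := fun x hx => rep_fderiv (hMd x hx) (hgd x hx)
  set Du : V → V →L[ℝ] ℝ := fun x => (pr k).comp (fderiv ℝ g x) +
    (κ (G x) • pr k + (x k) • (fderiv ℝ κ (G x)).comp (DG x)) with hDu
  have hud : ∀ x ∈ Ω, HasFDerivAt u (Du x) x := by
    intro x hx
    have h1 : HasFDerivAt κ (fderiv ℝ κ (G x)) (G x) :=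
      (hκs.differentiable (by simp)).differentiableAt.hasFDerivAt
    have h2 : HasFDerivAt (fun z => κ (G z)) ((fderiv ℝ κ (G x)).comp (DG x)) x :=
      h1.comp x (hGd x hx)
    have h3 : HasFDerivAt (fun z : V => z k) (pr k) x := (pr k).hasFDerivAt
    exact (hgd x hx).add (h2.mul h3)
  have hdκ : ∀ x ∈ Ω, |x k| * ‖fderiv ℝ κ (G x)‖ ≤ t / 24 := by
    intro x hx
    have h1 := (hκ _ (hGΘ x hx)).2.2.le.trans (hδt _)
    calc |x k| * ‖fderiv ℝ κ (G x)‖ ≤ R * (t / (24 * R)) :=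
          mul_le_mul (hxk x hx) h1 (norm_nonneg _) hR0.le
      _ = t / 24 := by field_simp
  -- the rows of the derivative of `M`
  have hMrow : ∀ x ∈ Ω, ∀ j ≤ k, ∀ v, fderiv ℝ M x v j = v j := by
    intro x hx j hj v
    have h1 : HasFDerivAt (fun y => M y j) ((pr j).comp (fderiv ℝ M x)) x :=
      hasFDerivAt_pi'.1 (hMd x hx) j
    have h2 : (fun y => M y j) = fun y : V => y j := funext fun y => hMj y j hj
    rw [h2] at h1
    have h3 : HasFDerivAt (fun y : V => y j) (pr j) x := (pr j).hasFDerivAt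
    have h4 := congrArg (fun L : V →L[ℝ] ℝ => L v) (h1.unique h3)
    exact h4
  refine ⟨u, fun x => ‖fderiv ℝ g x - cl (F x)‖, hus, huf, fun x hx h hh => ?_,
    fun x => norm_nonneg _, hgE, fun x hx => ?_⟩
  · rw [(rep_fderiv (hMd x hx) (hud x hx)).fderiv] at hh
    have hj : ∀ j, j ≠ k → fderiv ℝ M x h j = 0 := by
      intro j hj
      have h1 := congrFun hh j
      rw [pi_app, if_neg hj] at h1
      exact h1
    have hk : Du x h = 0 := by
      have h1 := congrFun hh k
      rw [pi_app, if_pos rfl] at h1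
      exact h1
    have evk : ev k k = 1 := by unfold ev; rw [Pi.single_eq_same]
    have evj : ∀ j, j ≠ k → ev k j = 0 := fun j hj => by
      unfold ev
      rw [Pi.single_eq_of_ne hj]
    have h1 : fderiv ℝ M x h = h k • ev k := by
      funext j
      rw [Pi.smul_apply, smul_eq_mul]
      by_cases hjk : j = k
      · subst hjk
        rw [hMrow x hx j le_rfl, evk, mul_one]
      · rw [hj j hjk, evj j hjk, mul_zero]
    obtain ⟨i1, i2⟩ := inv_fderiv hΩ hO hM hm hi hx
    have h2 : h = h k • τ x := by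
      conv_lhs => rw [← i1 h, h1, map_smul]
    have h3 : fderiv ℝ M x (τ x) = ev k := i2 (ev k)
    have hτj : ∀ j < k, τ x j = 0 := fun j hjk => by
      rw [← hMrow x hx j hjk.le (τ x), h3, evj j hjk.ne]
    have hτk : τ x k = 1 := by rw [← hMrow x hx k le_rfl (τ x), h3, evk]
    set w : ℝ := fderiv ℝ g x (τ x) k with hw
    have hw1 : -(e x) * ‖τ x‖ ≤ w :=
      hgm k (τ x) (hsg (τ x) hτj (by rw [hτk]; exact zero_le_one)) x hx
    have h4 : DG x (τ x) = w • ev k := by
      funext j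
      rw [Pi.smul_apply, smul_eq_mul, hDG]
      dsimp only
      rw [pi_app]
      by_cases hjk : j = k
      · subst hjk
        rw [if_pos rfl, evk, mul_one]
        rfl
      · rw [if_neg hjk, evj j hjk, mul_zero]
        show fderiv ℝ M x (τ x) j = 0
        rw [h3, evj j hjk]
    set c : ℝ := fderiv ℝ κ (G x) (ev k) with hc
    have h5 : Du x (τ x) = w + (κ (G x) + x k * (w * c)) := by
      show w + (κ (G x) * τ x k + x k * (fderiv ℝ κ (G x) (DG x (τ x)))) = _
      rw [h4, map_smul, smul_eq_mul, hτk, mul_one]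
    have hc1 : |x k * c| ≤ 1 / 24 := by
      rw [abs_mul]
      have h6 : |c| ≤ ‖fderiv ℝ κ (G x)‖ := by
        have h7 := (fderiv ℝ κ (G x)).le_opNorm (ev k)
        have h8 : ‖ev k‖ = 1 := by unfold ev; rw [Pi.norm_single]; simp
        rwa [h8, mul_one, Real.norm_eq_abs] at h7
      have h7 := hdκ x hx
      have h8 : |x k| * |c| ≤ |x k| * ‖fderiv ℝ κ (G x)‖ :=
        mul_le_mul_of_nonneg_left h6 (abs_nonneg _)
      linarith
    obtain ⟨q1, -, q3⟩ := hκG x hx
    have hpos : 0 < Du x (τ x) := by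
      rw [h5]
      have h6 : w + (κ (G x) + x k * (w * c)) = w * (1 + x k * c) + κ (G x) := by ring
      rw [h6]
      rw [abs_le] at hc1
      have h7 : 0 < 1 + x k * c := by linarith [hc1.1]
      have h8 : -(e x) * ‖τ x‖ * (1 + x k * c) ≤ w * (1 + x k * c) :=
        mul_le_mul_of_nonneg_right hw1 h7.le
      have h9 : 0 ≤ e x * ‖τ x‖ := mul_nonneg (he0 x hx).le (norm_nonneg _)
      have h10 : e x * ‖τ x‖ * (1 + x k * c) ≤ e x * ‖τ x‖ * 2 :=
        mul_le_mul_of_nonneg_left (by linarith [hc1.2]) h9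
      have h11 := he0 x hx
      nlinarith
    have h6 : Du x h = h k * Du x (τ x) := by
      conv_lhs => rw [h2, map_smul, smul_eq_mul]
    rw [h6] at hk
    have h7 : h k = 0 := by
      rcases mul_eq_zero.1 hk with h8 | h8
      · exact h8
      · exact absurd h8 hpos.ne'
    rw [h2, h7, zero_smul]
  · rw [(hud x hx).fderiv]
    set a : ℝ := ‖fderiv ℝ g x - cl (F x)‖ with ha
    set b : ℝ := ‖cl (F x)‖ with hb
    have hD0 : 0 ≤ ∑ i, dd k M F i x := Finset.sum_nonneg fun i _ => dd_nonneg _ _ _ _ _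
    have ha0 : 0 ≤ a := norm_nonneg _
    have hb0 : 0 ≤ b := norm_nonneg _
    have hDGn : ‖DG x‖ ≤ 1 + a + b + ∑ i, dd k M F i x := by
      refine pi_bound (by positivity) fun j => ?_
      by_cases hjk : j = k
      · rw [if_pos hjk]
        have h1 := pr_comp_norm k (fderiv ℝ g x)
        have h2 : ‖fderiv ℝ g x‖ ≤ a + b := by
          have := norm_add_le (fderiv ℝ g x - cl (F x)) (cl (F x))
          rwa [sub_add_cancel] at this
        linarith
      · rw [if_neg hjk]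
        rcases lt_or_gt_of_ne hjk with hlt | hgt
        · have h1 : (pr j).comp (fderiv ℝ M x) = pr j := by
            ext1 v
            exact hMrow x hx j hlt.le v
          rw [h1]
          have := pr_norm j
          linarith
        · have h1 : fderiv ℝ (fun y => M y j) x = (pr j).comp (fderiv ℝ M x) :=
            (hasFDerivAt_pi'.1 (hMd x hx) j).fderiv
          have h2 : dd k M F j x = ‖(pr j).comp (fderiv ℝ M x) - (pr j).comp (cl (F x))‖ := by
            unfold dd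
            rw [if_pos (Fin.lt_def.1 hgt), h1]
          have h3 : dd k M F j x ≤ ∑ i, dd k M F i x :=
            Finset.single_le_sum (f := fun i => dd k M F i x) (fun i _ => dd_nonneg _ _ _ _ _)
              (Finset.mem_univ j)
          have h4 := pr_comp_norm j (cl (F x))
          have h5 : ‖(pr j).comp (fderiv ℝ M x)‖ ≤
              ‖(pr j).comp (fderiv ℝ M x) - (pr j).comp (cl (F x))‖ +
                ‖(pr j).comp (cl (F x))‖ := by
            have := norm_add_le ((pr j).comp (fderiv ℝ M x) - (pr j).comp (cl (F x)))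
              ((pr j).comp (cl (F x)))
            rwa [sub_add_cancel] at this
          linarith
    have e1 : Du x - (pr k).comp (cl (F x)) = (pr k).comp (fderiv ℝ g x - cl (F x)) +
        (κ (G x) • pr k + (x k) • (fderiv ℝ κ (G x)).comp (DG x)) := by
      rw [ContinuousLinearMap.comp_sub, hDu]
      dsimp only
      rw [add_sub_right_comm]
    rw [e1]
    refine (norm_add_le _ _).trans ?_
    have e2 : ‖κ (G x) • pr k‖ ≤ t / 24 := by
      rw [norm_smul, Real.norm_of_nonneg (hκG x hx).2.2.le]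
      have h1 := (hκ _ (hGΘ x hx)).2.1.le.trans (hδt _)
      have h2 := pr_norm k
      have h3 := (hκG x hx).2.2
      calc κ (G x) * ‖pr k‖ ≤ κ (G x) * 1 := by gcongr
        _ ≤ t / 24 := by linarith
    have e3 : ‖(x k) • (fderiv ℝ κ (G x)).comp (DG x)‖ ≤
        t / 24 * (1 + a + b + ∑ i, dd k M F i x) := by
      rw [norm_smul, Real.norm_eq_abs]
      calc |x k| * ‖(fderiv ℝ κ (G x)).comp (DG x)‖
          ≤ |x k| * (‖fderiv ℝ κ (G x)‖ * ‖DG x‖) := by
            gcongr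
            exact ContinuousLinearMap.opNorm_comp_le _ _
        _ = (|x k| * ‖fderiv ℝ κ (G x)‖) * ‖DG x‖ := by ring
        _ ≤ _ := mul_le_mul (hdκ x hx) hDGn (norm_nonneg _) (by positivity)
    have e4 := norm_add_le (κ (G x) • pr k) ((x k) • (fderiv ℝ κ (G x)).comp (DG x))
    have e5 := pr_comp_norm k (fderiv ℝ g x - cl (F x))
    have e6 : t / 24 * (1 + a + b + ∑ i, dd k M F i x) ≤
        t / 24 + a + t * b + ∑ i, dd k M F i x := by
      have h1 : t / 24 * a ≤ 1 * a := mul_le_mul_of_nonneg_right (by linarith) ha0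
      have h2 : t / 24 * b ≤ t * b := mul_le_mul_of_nonneg_right (by linarith) hb0
      have h3 : t / 24 * (∑ i, dd k M F i x) ≤ 1 * ∑ i, dd k M F i x :=
        mul_le_mul_of_nonneg_right (by linarith) hD0
      have h4 : t / 24 * (1 + a + b + ∑ i, dd k M F i x) =
        t / 24 + t / 24 * a + t / 24 * b + t / 24 * ∑ i, dd k M F i x := by ring
      linarith
    linarith

end Vale.Agent.P073.R2.H268
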