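import Vale.Agent.P073.St

/-!
# P073: triangular homeomorphisms
-/

namespace Vale.Agent.P073.R2.H268

open Vale.Agent.P073.St

/-- `f` is triangular on `Ω`: for `i = 0, 1, 2` the component `i` of `f` depends only on the
coordinates `0, ..., i` of the point (for `i = 2` this is no condition). -/
def Triangular (Ω : Set V) (f : V → V) : Prop :=
  ∀ i : Fin 3, ∀ x ∈ Ω, ∀ y ∈ Ω, (∀ j ≤ i, x j = y j) → f x i = f y i

/-- `f` is triangular in suitable linear coordinates of the domain and of the target: for some
invertible matrices `N` and `A` the map `A f N` is triangular on `N⁻¹ Ω`. -/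
def TriangularLin (Ω : Set V) (f : V → V) : Prop :=
  ∃ A N : Mat, NonSing A ∧ NonSing N ∧
    Triangular {x | ap N x ∈ Ω} (fun x => ap A (f (ap N x)))

end Vale.Agent.P073.R2.H268
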