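import Vale.Agent.P073.R2.H268.Auto
import Vale.Agent.P073.R2.H268.Defs
import Vale.Agent.P073.H655.Tame8

/-!
# P073: triangular homeomorphisms are finely approximable
-/

namespace Vale.Agent.P073.R2.H268

open MeasureTheory Set Filter Topology Metric Vale.Agent.P073.St Vale.Agent.P073.AB
open Vale.Agent.P073.H655 (exists_equiv domain_lin homeo_lin fa_lin fa_dom homeo_dom)
open Vale.Agent.P073.H655.V6 (FinelyApproximable finely_of_FA)
open scoped ContDiff ENNReal

variable {p : ℝ} {Ω Λ : Set V}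

/-- **triangular homeomorphisms** -/
theorem fa_of_dep {f : V → V} {F : V → Mat} (hp : 1 ≤ p) (hΩ : St.IsBoundedDomain Ω)
    (hΛ : St.IsBoundedDomain Λ) (hf : St.IsHomeo Ω Λ f) (hF : St.IsSobolev p Ω f F)
    (hd : Triangular Ω f) : _root_.Vale.Agent.P073.H694.FA p Ω Λ f F := by
  classical
  have hd' : DepBelow 3 Ω f := fun j _ => hd j
  have hfc : ContinuousOn f Ω := by
    obtain ⟨_, -, h1, -⟩ := hf
    exact h1
  have hsgn := fun k => global_sign hf hΛ.1 (depCube_of_dep hd') hΩ.1 hΩ.2.1.isPreconnected hfc k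
  set s : Fin 3 → ℝ := fun k =>
    if ∀ a ∈ Ω, ∃ r : ℝ, 0 < r ∧ MonoOn (closedBall a r) f k then 1 else -1 with hs
  have hs0 : ∀ k, s k ≠ 0 := fun k => by
    rw [hs]
    dsimp only
    split_ifs <;> norm_num
  set A : Mat := fun i j => if i = j then s i else 0 with hA
  have hap : ∀ v : V, ∀ i, ap A v i = s i * v i := by
    intro v i
    simp [ap, hA]
  have hAn : NonSing A := by
    intro v hv
    funext i
    have h1 := congrFun hv i
    rw [hap] at h1
    exact (mul_eq_zero.1 h1).resolve_left (hs0 i)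
  obtain ⟨T, hT⟩ := exists_equiv hAn
  have hTi : ∀ v : V, ∀ i, T v i = s i * v i := fun v i => by rw [hT, hap]
  refine fa_lin T hT hp hΩ.1 ?_
  have hF' : St.IsSobolev p Ω (fun x => T (f x)) (fun x => mm A (F x)) := by
    have h1 := MM.H694.sobolev_lin hp (PK.volume_ne_top_of_domain hΩ) hF A
    simp only [← hT] at h1
    exact h1
  refine fa_of_tri hp hΩ (domain_lin T hΛ) (homeo_lin T hf) hF' ?_ ?_
  · intro j _ x hx y hy h
    show T (f x) j = T (f y) j
    rw [hTi, hTi, hd j x hx y hy h]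
  · intro k a ha
    by_cases hk : ∀ a ∈ Ω, ∃ r : ℝ, 0 < r ∧ MonoOn (closedBall a r) f k
    · obtain ⟨r, hr, h⟩ := hk a ha
      refine ⟨r, hr, fun x hx y hy hxy hle => ?_⟩
      have h1 : s k = 1 := if_pos hk
      show T (f x) k ≤ T (f y) k
      rw [hTi, hTi, h1, one_mul, one_mul]
      exact h x hx y hy hxy hle
    · obtain ⟨r, hr, h⟩ := (hsgn k).resolve_left hk a ha
      refine ⟨r, hr, fun x hx y hy hxy hle => ?_⟩
      have h1 : s k = -1 := if_neg hk
      have h2 := h x hx y hy hxy hle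
      show T (f x) k ≤ T (f y) k
      rw [hTi, hTi, h1]
      linarith

/-- **triangular homeomorphisms, in linear coordinates** -/
theorem fa_of_lin {f : V → V} {F : V → Mat} (hp : 1 ≤ p) (hΩ : St.IsBoundedDomain Ω)
    (hΛ : St.IsBoundedDomain Λ) (hf : St.IsHomeo Ω Λ f) (hF : St.IsSobolev p Ω f F)
    (hd : TriangularLin Ω f) : _root_.Vale.Agent.P073.H694.FA p Ω Λ f F := by
  obtain ⟨A, N, hA, hN, hs⟩ := hd
  obtain ⟨T, hT⟩ := exists_equiv hN
  set S : V ≃L[ℝ] V := T.symm with hS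
  have hSN : ∀ v, S.symm v = ap N v := fun v => by rw [hS, T.symm_symm]; exact hT v
  have himg : {x | ap N x ∈ Ω} = S '' Ω := by
    ext x
    constructor
    · intro hx
      exact ⟨ap N x, hx, by rw [← hSN, S.apply_symm_apply]⟩
    · rintro ⟨y, hy, rfl⟩
      show ap N (S y) ∈ Ω
      rw [← hSN, S.symm_apply_apply]
      exact hy
  have hfS : (fun x => ap A (f (ap N x))) = fun x => ap A (f (S.symm x)) :=
    funext fun x => by rw [hSN]
  rw [himg, hfS] at hs
  have hF' := MM.H694.sobolev_dom hp hΩ S hSN hF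
  have hΩ' := domain_lin S hΩ
  have hf' := homeo_dom S hf
  refine fa_dom S hSN hp hΩ.1 hF' ?_
  obtain ⟨T', hT'⟩ := exists_equiv hA
  refine fa_lin T' hT' hp hΩ'.1 ?_
  have hF'' : St.IsSobolev p (S '' Ω) (fun x => T' (f (S.symm x)))
      (fun x => mm A (mm (F (S.symm x)) N)) := by
    have h1 := MM.H694.sobolev_lin hp (PK.volume_ne_top_of_domain hΩ') hF' A
    simp only [← hT'] at h1
    exact h1
  refine fa_of_dep hp hΩ' (domain_lin T' hΛ) (homeo_lin T' hf') hF'' ?_
  simp only [← hT'] at hs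
  exact hs

theorem finely {f : V → V} {F : V → Mat} (hp : 1 ≤ p) (hΩ : St.IsBoundedDomain Ω)
    (hΛ : St.IsBoundedDomain Λ) (hf : St.IsHomeo Ω Λ f) (hF : St.IsSobolev p Ω f F)
    (hd : TriangularLin Ω f) : FinelyApproximable p Ω Λ f F :=
  finely_of_FA hp hΩ hΛ hf hF (fa_of_lin hp hΩ hΛ hf hF hd)

theorem approximable {f : V → V} {F : V → Mat} (hp : 1 ≤ p) (hΩ : St.IsBoundedDomain Ω)
    (hΛ : St.IsBoundedDomain Λ) (hf : St.IsHomeo Ω Λ f) (hF : St.IsSobolev p Ω f F)
    (hd : TriangularLin Ω f) : St.DiffeoApproximable p Ω Λ f F :=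
  H694.FA.approximable hp hΩ hΛ hf hF (fa_of_lin hp hΩ hΛ hf hF hd)

end Vale.Agent.P073.R2.H268
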