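import Vale.Agent.P073.R2.H580.SpecT
import Mathlib.Analysis.ODE.ExistUnique

/-!
# P073: homeomorphisms with two smooth independent components: the two signs exclude each other
-/

namespace Vale.Agent.P073.R2.H268

open MeasureTheory Set Filter Topology Vale.Agent.P073.St
open Vale.Agent.P073.R2.H580 (eb cr flp LocUp Ind SpecL2)
open scoped ContDiff

theorem clm_sum (A : V →L[ℝ] ℝ) (v : V) : A v = v 0 * A (eb 0) + v 1 * A (eb 1) +
    v 2 * A (eb 2) := by
  have h1 : v = v 0 • eb 0 + v 1 • eb 1 + v 2 • eb 2 := by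
    funext j
    fin_cases j <;> simp [eb]
  conv_lhs => rw [h1]
  simp only [map_add, map_smul, smul_eq_mul]

theorem clm_ext {A B : V →L[ℝ] ℝ} (h : ∀ j, A (eb j) = B (eb j)) : A = B := by
  ext1 v
  rw [clm_sum A, clm_sum B, h 0, h 1, h 2]

theorem cr_kills (f : V → V) (x : V) : fderiv ℝ (fun z => f z 0) x (cr f x) = 0 ∧
    fderiv ℝ (fun z => f z 1) x (cr f x) = 0 := by
  rw [clm_sum (fderiv ℝ (fun z => f z 0) x), clm_sum (fderiv ℝ (fun z => f z 1) x)]
  simp only [cr, Matrix.cons_val_zero, Matrix.cons_val_one, Matrix.cons_val]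
  constructor <;> ring

theorem cr_ne {f : V → V} {x : V}
    (h : ∀ s t : ℝ, s • fderiv ℝ (fun z => f z 0) x + t • fderiv ℝ (fun z => f z 1) x = 0 →
      s = 0 ∧ t = 0) : cr f x ≠ 0 := by
  intro h0
  set A := fderiv ℝ (fun z => f z 0) x with hA
  set B := fderiv ℝ (fun z => f z 1) x with hB
  have e0 : A (eb 1) * B (eb 2) - A (eb 2) * B (eb 1) = 0 := congrFun h0 0
  have e1 : A (eb 2) * B (eb 0) - A (eb 0) * B (eb 2) = 0 := congrFun h0 1
  have e2 : A (eb 0) * B (eb 1) - A (eb 1) * B (eb 0) = 0 := congrFun h0 2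
  -- the minors vanish
  have hm : ∀ i j, B (eb i) * A (eb j) = A (eb i) * B (eb j) := by
    intro i j
    fin_cases i <;> fin_cases j <;>
      simp only [Fin.zero_eta, Fin.mk_one, Fin.reduceFinMk] <;> linarith
  have hA0 : A ≠ 0 := by
    intro hz
    have h1 := h 1 0 (by rw [hz, smul_zero, zero_smul, add_zero])
    exact one_ne_zero h1.1
  obtain ⟨i, hi⟩ : ∃ i, A (eb i) ≠ 0 := by
    by_contra hc
    push Not at hc
    exact hA0 (clm_ext fun j => by rw [hc j]; rfl)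
  have h1 := h (B (eb i)) (-(A (eb i))) (clm_ext fun j => by
    show B (eb i) * A (eb j) + -(A (eb i)) * B (eb j) = 0
    rw [hm i j]
    ring)
  exact hi (neg_eq_zero.1 h1.2)

theorem cr_smooth {Ω : Set V} {f : V → V} (hΩ : IsOpen Ω)
    (h0 : ContDiffOn ℝ ∞ (fun x => f x 0) Ω) (h1 : ContDiffOn ℝ ∞ (fun x => f x 1) Ω) :
    ContDiffOn ℝ 1 (cr f) Ω := by
  have hA : ∀ j, ContDiffOn ℝ 1 (fun x => fderiv ℝ (fun z => f z 0) x (eb j)) Ω := fun j =>
    ((h0.fderiv_of_isOpen hΩ (m := ∞) (by simp)).of_le (by simp)).clm_apply contDiffOn_const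
  have hB : ∀ j, ContDiffOn ℝ 1 (fun x => fderiv ℝ (fun z => f z 1) x (eb j)) Ω := fun j =>
    ((h1.fderiv_of_isOpen hΩ (m := ∞) (by simp)).of_le (by simp)).clm_apply contDiffOn_const
  rw [contDiffOn_pi]
  intro j
  fin_cases j
  · exact ((hA 1).mul (hB 2)).sub ((hA 2).mul (hB 1))
  · exact ((hA 2).mul (hB 0)).sub ((hA 0).mul (hB 2))
  · exact ((hA 0).mul (hB 1)).sub ((hA 1).mul (hB 0))

/-- along a curve in `N` tangent to the fibres, `f 2` does not decrease -/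
theorem mono_along {f : V → V} {N : Set V} (hN : IsOpen N) (h : LocUp f N) {γ : ℝ → V} {r : ℝ}
    (hγ : ∀ t ∈ Ioo (-r) r, HasDerivAt γ (cr f (γ t)) t) (hγN : ∀ t ∈ Ioo (-r) r, γ t ∈ N)
    {s t : ℝ} (hs : s ∈ Ioo (-r) r) (ht : t ∈ Ioo (-r) r) (hst : s ≤ t) :
    f (γ s) 2 ≤ f (γ t) 2 := by
  refine le_of_forall_pos_le_add fun ε hε => ?_
  obtain ⟨w, hw, hwf, hwd⟩ := h (ε / 2) (half_pos hε)
  have hd : ∀ u ∈ Ioo (-r) r, HasDerivAt (fun u => w (γ u)) (fderiv ℝ w (γ u) (cr f (γ u))) u := by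
    intro u hu
    have h1 : HasFDerivAt w (fderiv ℝ w (γ u)) (γ u) :=
      ((hw.contDiffAt (hN.mem_nhds (hγN u hu))).differentiableAt (by simp)).hasFDerivAt
    exact h1.comp_hasDerivAt u (hγ u hu)
  have hmono : MonotoneOn (fun u => w (γ u)) (Ioo (-r) r) := by
    refine monotoneOn_of_deriv_nonneg (convex_Ioo _ _)
      (fun u hu => (hd u hu).continuousAt.continuousWithinAt) ?_ ?_
    · rw [interior_Ioo]
      exact fun u hu => (hd u hu).differentiableAt.differentiableWithinAt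
    · rw [interior_Ioo]
      intro u hu
      rw [(hd u hu).deriv]
      exact (hwd _ (hγN u hu)).le
  have h1 := hmono hs ht hst
  dsimp only at h1
  have h2 := abs_le.1 (hwf _ (hγN s hs))
  have h3 := abs_le.1 (hwf _ (hγN t ht))
  linarith [h2.1, h3.2]

theorem const_along {g : V → ℝ} {N : Set V} (hN : IsOpen N) (hg : ContDiffOn ℝ ∞ g N)
    {γ : ℝ → V} {v : V → V} {r : ℝ} (hγ : ∀ t ∈ Ioo (-r) r, HasDerivAt γ (v (γ t)) t)
    (hγN : ∀ t ∈ Ioo (-r) r, γ t ∈ N) (h0 : ∀ x ∈ N, fderiv ℝ g x (v x) = 0) {s t : ℝ}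
    (hs : s ∈ Ioo (-r) r) (ht : t ∈ Ioo (-r) r) : g (γ s) = g (γ t) := by
  have hd : ∀ u ∈ Ioo (-r) r, HasDerivAt (fun u => g (γ u)) 0 u := by
    intro u hu
    have h1 : HasFDerivAt g (fderiv ℝ g (γ u)) (γ u) :=
      ((hg.contDiffAt (hN.mem_nhds (hγN u hu))).differentiableAt (by simp)).hasFDerivAt
    have h2 := h1.comp_hasDerivAt u (hγ u hu)
    rw [h0 _ (hγN u hu)] at h2
    exact h2
  refine IsOpen.is_const_of_deriv_eq_zero isOpen_Ioo (convex_Ioo (-r) r).isPreconnected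
    (fun u hu => (hd u hu).differentiableAt.differentiableWithinAt)
    (fun u hu => (hd u hu).deriv) hs ht

/-- **Row L2** -/
theorem two_signs : SpecL2 := by
  intro Ω Λ f hΩ hf hI N hN hNn hNΩ hup hdn
  obtain ⟨h0, h1, hind⟩ := hI
  obtain ⟨a, ha⟩ := hNn
  have haΩ := hNΩ ha
  have hcr : ContDiffAt ℝ 1 (cr f) a := (cr_smooth hΩ h0 h1).contDiffAt (hΩ.mem_nhds haΩ)
  obtain ⟨γ, hγa, r₀, hr₀, hγ⟩ :=
    hcr.exists_forall_mem_closedBall_exists_eq_forall_mem_Ioo_hasDerivAt₀ 0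
  simp only [zero_sub, zero_add] at hγ
  have hγc : ContinuousAt γ 0 := (hγ 0 ⟨by linarith, hr₀⟩).continuousAt
  have hev : ∀ᶠ t in 𝓝 (0 : ℝ), γ t ∈ N := hγc.eventually (by
    rw [hγa]
    exact hN.mem_nhds ha)
  obtain ⟨r₁, hr₁, hr₁N⟩ := Metric.eventually_nhds_iff.1 hev
  set r : ℝ := min r₀ r₁ with hr
  have hr0 : 0 < r := lt_min hr₀ hr₁
  have hγr : ∀ t ∈ Ioo (-r) r, HasDerivAt γ (cr f (γ t)) t := fun t ht => by
    have h3 := min_le_left r₀ r₁
    exact hγ t ⟨by linarith [ht.1], by linarith [ht.2]⟩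
  have hγN : ∀ t ∈ Ioo (-r) r, γ t ∈ N := fun t ht => by
    apply hr₁N
    rw [Real.dist_eq, sub_zero, abs_lt]
    have h3 := min_le_right r₀ r₁
    exact ⟨by linarith [ht.1], by linarith [ht.2]⟩
  have hcrf : cr (flp f) = cr f := rfl
  have h0I : (0 : ℝ) ∈ Ioo (-r) r := ⟨by linarith, hr0⟩
  have hconst : ∀ t ∈ Ioo (-r) r, f (γ t) = f (γ 0) := by
    intro t ht
    have c0 : f (γ t) 0 = f (γ 0) 0 :=
      const_along hN (h0.mono hNΩ) hγr hγN (fun x _ => (cr_kills f x).1) ht h0I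
    have c1 : f (γ t) 1 = f (γ 0) 1 :=
      const_along hN (h1.mono hNΩ) hγr hγN (fun x _ => (cr_kills f x).2) ht h0I
    have c2 : f (γ t) 2 = f (γ 0) 2 := by
      have m : ∀ s ∈ Ioo (-r) r, ∀ u ∈ Ioo (-r) r, s ≤ u → f (γ s) 2 = f (γ u) 2 := by
        intro s hs u hu hsu
        have q1 := mono_along hN hup hγr hγN hs hu hsu
        have q2 := mono_along (f := flp f) hN hdn (by rw [hcrf]; exact hγr) hγN hs hu hsu
        have q3 : -(f (γ s) 2) ≤ -(f (γ u) 2) := q2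
        linarith
      rcases le_total t 0 with h3 | h3
      · exact m t ht 0 h0I h3
      · exact (m 0 h0I t ht h3).symm
    funext j
    fin_cases j
    · exact c0
    · exact c1
    · exact c2
  have hinj : ∀ t ∈ Ioo (-r) r, γ t = a := by
    intro t ht
    obtain ⟨k, ⟨k1, -⟩, -, -⟩ := hf
    have h3 := (k1 _ (hNΩ (hγN t ht))).2
    have h4 := (k1 _ (hNΩ (hγN 0 h0I))).2
    rw [hconst t ht, h4, hγa] at h3
    exact h3.symm
  have hd1 : HasDerivAt γ (cr f a) 0 := by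
    have h3 := hγr 0 h0I
    rwa [hγa] at h3
  have hd2 : HasDerivAt γ 0 0 := by
    have h3 : γ =ᶠ[𝓝 0] fun _ => a := by
      filter_upwards [isOpen_Ioo.mem_nhds h0I] with t ht using hinj t ht
    exact (hasDerivAt_const (0 : ℝ) a).congr_of_eventuallyEq h3
  exact cr_ne (hind a haΩ) (hd1.unique hd2)

end Vale.Agent.P073.R2.H268
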