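import Vale.Agent.P073.H183.PSD

/-!
# P073: the sign of a directional derivative of a component which does not decrease
-/

namespace Vale.Agent.P073.R2.H268

open MeasureTheory Set Filter Topology Metric Vale.Agent.P073.St Vale.Agent.P073.AB
open Vale.Agent.P073.H183
open scoped ContDiff ENNReal Convolution

/-- near each point `u` does not decrease in the direction `h` -/
def NonDecr (U : Set V) (u : V → ℝ) (h : V) : Prop :=
  ∀ a ∈ U, ∃ r : ℝ, 0 < r ∧ ∀ x ∈ closedBall a r, ∀ t : ℝ, 0 < t → x + t • h ∈ closedBall a r →
    u x ≤ u (x + t • h)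

/-- the directional derivative of the component `i` -/
noncomputable def Df (U : Set V) (F : V → Mat) (h : V) (i : Fin 3) (x : V) : ℝ :=
  ∑ j, h j * U.indicator (fun x => F x i j) x

variable {p : ℝ} {U : Set V} {f : V → V} {F : V → Mat}

theorem locD (hp : 1 ≤ p) (hU : IsOpen U) (hF : St.IsSobolev p U f F) (h : V) (i : Fin 3) :
    LocallyIntegrable (Df U F h i) volume := by
  have h1 : Df U F h i = ∑ j, (h j) • (U.indicator (fun x => F x i j)) := by
    funext x
    simp [Df, Finset.sum_apply]
  rw [h1]
  apply locallyIntegrable_finsetSum'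
  intro j _
  exact (locF hp hU hF i j).smul _

theorem local_nonneg' (hp : 1 ≤ p) (hU : IsOpen U) (hfc : ContinuousOn f U)
    (hF : St.IsSobolev p U f F) (h : V) (i : Fin 3) (hm : NonDecr U (fun x => f x i) h) {a : V}
    (ha : a ∈ U) :
    ∃ δ : ℝ, 0 < δ ∧ ∀ φ : V → ℝ, ContDiff ℝ ∞ φ → HasCompactSupport φ → (∀ x, 0 ≤ φ x) →
      tsupport φ ⊆ closedBall a δ → 0 ≤ ∫ x, φ x * Df U F h i x := by
  obtain ⟨r, hr, hmon⟩ := hm a ha
  obtain ⟨δ₀, hδ₀, hδU⟩ := nhds_basis_closedBall.mem_iff.1 (hU.mem_nhds ha)
  set R : ℝ := min δ₀ r with hR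
  have hR0 : 0 < R := lt_min hδ₀ hr
  have hRU : closedBall a R ⊆ U := (closedBall_subset_closedBall (min_le_left _ _)).trans hδU
  have hRr : closedBall a R ⊆ closedBall a r := closedBall_subset_closedBall (min_le_right _ _)
  refine ⟨R / 2, by positivity, fun φ hφ hc h0 hs => ?_⟩
  set g : V → ℝ := fun x => f x i with hg
  have hgc : ContinuousOn g (closedBall a R) := by
    have h1 : ContinuousOn f (closedBall a R) := hfc.mono hRU
    exact (continuous_apply i).comp_continuousOn h1
  have hgm : ∀ x ∈ closedBall a R, ∀ t : ℝ, 0 < t → x + t • h ∈ closedBall a R →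
      g x ≤ g (x + t • h) := fun x hx t ht hx' => hmon x (hRr hx) t ht (hRr hx')
  have hkey := key (μ := (volume : Measure V)) hR0 hgc hgm hφ hc h0 hs
  have hsR : tsupport φ ⊆ closedBall a R :=
    hs.trans (closedBall_subset_closedBall (by linarith))
  have htest : IsTest U φ := ⟨hφ.contDiffOn, hc, hsR.trans hRU⟩
  have hpd : ∀ x j, pd φ x j = fderiv ℝ φ x (Pi.single j 1) := fun x j => PK.pd_eq_fderiv hφ x j
  -- the weak derivative
  have hw : ∀ j, ∫ x, φ x * U.indicator (fun x => F x i j) x =
      - ∫ x, fderiv ℝ φ x (Pi.single j 1) * U.indicator (fun x => f x i) x := by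
    intro j
    have h1 := hF.2.2 φ htest i j
    simp only [St.int] at h1
    rw [← integral_indicator hU.measurableSet, ← integral_indicator hU.measurableSet] at h1
    have e1 : (U.indicator fun x => φ x * F x i j) =
        fun x => φ x * U.indicator (fun x => F x i j) x := by
      funext x
      exact indicator_mul_right U φ (fun x => F x i j)
    have e2 : (U.indicator fun x => pd φ x j * f x i) =
        fun x => fderiv ℝ φ x (Pi.single j 1) * U.indicator (fun x => f x i) x := by
      funext x
      rw [← hpd]
      exact indicator_mul_right U (fun x => pd φ x j) (fun x => f x i)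
    rw [e1, e2] at h1
    exact h1
  have hi1 : ∀ j, Integrable (fun x => φ x * U.indicator (fun x => F x i j) x) volume :=
    fun j => (locF hp hU hF i j).integrable_smul_left_of_hasCompactSupport hφ.continuous hc
  have hdc : ∀ j : Fin 3, Continuous fun x => fderiv ℝ φ x (Pi.single j 1) := fun j =>
    (hφ.continuous_fderiv (by simp)).clm_apply continuous_const
  have hds : ∀ j : Fin 3, HasCompactSupport fun x => fderiv ℝ φ x (Pi.single j 1) := fun j => by
    have h1 := hc.fderiv (𝕜 := ℝ)
    exact h1.comp_left (g := fun L : V →L[ℝ] ℝ => L (Pi.single j 1)) rfl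
  have hi2 : ∀ j, Integrable
      (fun x => fderiv ℝ φ x (Pi.single j 1) * U.indicator (fun x => f x i) x) volume :=
    fun j => (locf hp hU hF i).integrable_smul_left_of_hasCompactSupport (hdc j) (hds j)
  have e1 : ∫ x, φ x * Df U F h i x =
      ∑ j, h j * ∫ x, φ x * U.indicator (fun x => F x i j) x := by
    have h1 : (fun x => φ x * Df U F h i x) =
        fun x => ∑ j, h j * (φ x * U.indicator (fun x => F x i j) x) := by
      funext x
      rw [Df, Finset.mul_sum]
      apply Finset.sum_congr rfl
      intro j _
      ring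
    rw [h1, integral_finsetSum _ (fun j _ => (hi1 j).const_mul _)]
    apply Finset.sum_congr rfl
    intro j _
    rw [integral_const_mul]
  have e2 : ∫ x, -(fderiv ℝ φ x h) * (closedBall a R).indicator g x =
      ∑ j, h j * (- ∫ x, fderiv ℝ φ x (Pi.single j 1) * U.indicator (fun x => f x i) x) := by
    have h1 : (fun x => -(fderiv ℝ φ x h) * (closedBall a R).indicator g x) =
        fun x => ∑ j, h j *
          -(fderiv ℝ φ x (Pi.single j 1) * U.indicator (fun x => f x i) x) := by
      funext x
      have h2 : fderiv ℝ φ x h = ∑ j, h j * fderiv ℝ φ x (Pi.single j 1) := by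
        conv_lhs => rw [pi_eq_sum_univ' h]
        rw [map_sum]
        apply Finset.sum_congr rfl
        intro j _
        rw [map_smul, smul_eq_mul]
      by_cases hx : x ∈ tsupport φ
      · have hx1 : x ∈ closedBall a R := hsR hx
        rw [indicator_of_mem hx1, h2, hg, indicator_of_mem (hRU hx1), neg_mul, Finset.sum_mul,
          ← Finset.sum_neg_distrib]
        apply Finset.sum_congr rfl
        intro j _
        ring
      · have h3 : fderiv ℝ φ x = 0 := by
          by_contra hne
          exact hx (support_fderiv_subset ℝ hne)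
        simp [h3]
    have hi3 : ∀ j, Integrable
        (fun x => -(fderiv ℝ φ x (Pi.single j 1) * U.indicator (fun x => f x i) x)) volume :=
      fun j => (hi2 j).neg
    rw [h1, integral_finsetSum _ (fun j _ => (hi3 j).const_mul _)]
    apply Finset.sum_congr rfl
    intro j _
    rw [integral_const_mul, integral_neg]
  rw [e1]
  simp only [hw]
  rw [← e2]
  exact hkey

/-- **the sign of the weak directional derivative** -/
theorem sign (hp : 1 ≤ p) (hU : IsOpen U) (hfc : ContinuousOn f U) (hF : St.IsSobolev p U f F)
    (h : V) (i : Fin 3) (hm : NonDecr U (fun x => f x i) h) :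
    ∀ᵐ x ∂(volume : Measure V), x ∈ U → 0 ≤ cl (F x) h i := by
  let φ : ℕ → ContDiffBump (0 : V) := fun k =>
    { rIn := 1 / (2 * ((k : ℝ) + 1))
      rOut := 1 / ((k : ℝ) + 1)
      rIn_pos := by positivity
      rIn_lt_rOut := by
        apply one_div_lt_one_div_of_lt (by positivity)
        have : (0 : ℝ) ≤ k := Nat.cast_nonneg k
        linarith }
  have hφ0 : Tendsto (fun k => (φ k).rOut) atTop (𝓝 0) :=
    tendsto_one_div_add_atTop_nhds_zero_nat
  have hφK : ∀ᶠ k in atTop, (φ k).rOut ≤ 2 * (φ k).rIn := by
    refine Eventually.of_forall fun k => ?_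
    change 1 / ((k : ℝ) + 1) ≤ 2 * (1 / (2 * ((k : ℝ) + 1)))
    have : (0 : ℝ) < (k : ℝ) + 1 := by positivity
    apply le_of_eq
    field_simp
  filter_upwards [ContDiffBump.ae_convolution_tendsto_right_of_locallyIntegrable
    (μ := (volume : Measure V)) hφ0 hφK (locD hp hU hF h i)] with x hx hxU
  obtain ⟨δ, hδ, hloc⟩ := local_nonneg' hp hU hfc hF h i hm hxU
  have h4 : 0 ≤ Df U F h i x := by
    apply ge_of_tendsto hx
    have h2 : ∀ᶠ k in atTop, (φ k).rOut < δ := hφ0.eventually_lt_const hδ
    filter_upwards [h2] with k hk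
    rw [convolution_eq_swap]
    have hsup : tsupport (fun y => (φ k).normed volume (x - y)) ⊆ closedBall x δ := by
      apply closure_minimal _ isClosed_closedBall
      intro y hy
      have h3 : x - y ∈ Function.support ((φ k).normed volume) := hy
      rw [ContDiffBump.support_normed_eq, mem_ball_zero_iff] at h3
      rw [mem_closedBall, dist_comm, dist_eq_norm]
      exact (h3.trans hk).le
    have h3 := hloc (fun y => (φ k).normed volume (x - y))
      ((φ k).contDiff_normed.comp (contDiff_const.sub contDiff_id))
      (HasCompactSupport.of_support_subset_isCompact (isCompact_closedBall x δ)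
        (subset_closure.trans hsup))
      (fun y => (φ k).nonneg_normed _) hsup
    exact h3
  have h3 : cl (F x) h i = ∑ j, F x i j * h j := by
    simp [cl, Matrix.toLin'_apply, Matrix.mulVec, dotProduct]
  rw [h3]
  refine h4.trans_eq ?_
  rw [Df]
  apply Finset.sum_congr rfl
  intro j _
  rw [indicator_of_mem hxU]
  ring

end Vale.Agent.P073.R2.H268
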