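import Vale.Agent.P073.R2.H268.Step
import Vale.Agent.P073.R2.H268.Sign

/-!
# P073: increasing triangular homeomorphisms are finely approximable
-/

namespace Vale.Agent.P073.R2.H268

open MeasureTheory Set Filter Topology Metric Vale.Agent.P073.St Vale.Agent.P073.AB
open Vale.Agent.P073.SQ (ev)
open Vale.Agent.P073.MM Vale.Agent.P073.MM.H694
open scoped ContDiff ENNReal

variable {p : ℝ} {Ω Λ : Set V}

theorem row_three {f₀ : V → V} {F : V → Mat} (hΩ : IsOpen Ω) (hf₀ : St.IsHomeo Ω Λ f₀) :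
    Row p Ω Λ f₀ F 3 := by
  intro σ _ hσ0 ε _
  have h1 : mix 3 f₀ = fun x => x := funext fun x => funext fun j => mix_lt j.isLt
  refine ⟨f₀, hf₀, fun _ _ _ _ => rfl, fun x hx => ?_, ⟨Ω, hΩ, ?_⟩, fun j hj => ?_⟩
  · rw [sub_self, norm_zero]
    exact (hσ0 x hx).le
  · rw [h1]
    exact ⟨fun x => x, ⟨fun x hx => ⟨hx, rfl⟩, fun x hx => ⟨hx, rfl⟩⟩,
      fun i => (contDiff_apply ℝ ℝ i).contDiffOn, fun i => (contDiff_apply ℝ ℝ i).contDiffOn⟩
  · exact absurd j.isLt (by omega)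

theorem exists_t' {p ε : ℝ} (hp : 1 ≤ p) (hε : 0 < ε) {v K : ℝ≥0∞} (hv : v ≠ ⊤) (hK : K ≠ ⊤) :
    ∃ t : ℝ, 0 < t ∧ ENNReal.ofReal (t ^ p) * v + K * ENNReal.ofReal t ≤ ENNReal.ofReal ε := by
  have hp0 : 0 < p := by linarith
  have t0 : Tendsto (fun n : ℕ => 1 / ((n : ℝ) + 1)) atTop (𝓝 0) :=
    tendsto_one_div_add_atTop_nhds_zero_nat
  have t1 : Tendsto (fun n : ℕ => ENNReal.ofReal (1 / ((n : ℝ) + 1))) atTop (𝓝 0) := by
    simpa using ENNReal.tendsto_ofReal t0
  have t2 : Tendsto (fun n : ℕ => ENNReal.ofReal ((1 / ((n : ℝ) + 1)) ^ p)) atTop (𝓝 0) := by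
    have h2 : Tendsto (fun n : ℕ => (1 / ((n : ℝ) + 1)) ^ p) atTop (𝓝 (0 ^ p)) :=
      t0.rpow_const (Or.inr hp0.le)
    rw [Real.zero_rpow hp0.ne'] at h2
    simpa using ENNReal.tendsto_ofReal h2
  have t3 := ENNReal.Tendsto.mul_const (b := v) t2 (Or.inr hv)
  rw [zero_mul] at t3
  have t5 := ENNReal.Tendsto.const_mul (a := K) t1 (Or.inr hK)
  rw [mul_zero] at t5
  have t7 := t3.add t5
  simp only [add_zero] at t7
  obtain ⟨n, hn⟩ := (t7.eventually (gt_mem_nhds (ENNReal.ofReal_pos.2 hε))).exists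
  exact ⟨1 / ((n : ℝ) + 1), by positivity, hn.le⟩

theorem clm_le_rows (L : V →L[ℝ] V) : ‖L‖ ≤ ‖(pr 0).comp L‖ + ‖(pr 1).comp L‖ +
    ‖(pr 2).comp L‖ := by
  refine ContinuousLinearMap.opNorm_le_bound _ (by positivity) fun v => ?_
  rw [pi_norm_le_iff_of_nonneg (by positivity)]
  intro j
  have h : ∀ i, ‖(pr i).comp L‖ ≤ ‖(pr 0).comp L‖ + ‖(pr 1).comp L‖ + ‖(pr 2).comp L‖ := by
    intro i
    have h0 := norm_nonneg ((pr 0).comp L)
    have h1 := norm_nonneg ((pr 1).comp L)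
    have h2 := norm_nonneg ((pr 2).comp L)
    fin_cases i
    · show ‖(pr 0).comp L‖ ≤ _
      linarith
    · show ‖(pr 1).comp L‖ ≤ _
      linarith
    · show ‖(pr 2).comp L‖ ≤ _
      linarith
  exact (((pr j).comp L).le_opNorm v).trans (mul_le_mul_of_nonneg_right (h j) (norm_nonneg v))

theorem fa_of_row {f₀ : V → V} {F : V → Mat} (hp : 1 ≤ p) (hΩ : St.IsBoundedDomain Ω)
    (hF : St.IsSobolev p Ω f₀ F) (hrow : Row p Ω Λ f₀ F 0) :
    _root_.Vale.Agent.P073.H694.FA p Ω Λ f₀ F := by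
  intro σ hσ hσ0 ε hε
  have hp0 : 0 < p := by linarith
  have hev : ∀ j, ‖ev j‖ = 1 := fun j => by unfold ev; rw [Pi.norm_single]; simp
  have hv : volume Ω ≠ ⊤ := (PK.isBounded_of_domain hΩ).measure_lt_top.ne
  obtain ⟨t, ht, htC⟩ := exists_t' hp hε hv (K := 3 * (ENNReal.ofReal (3 ^ p) * 3))
    (ENNReal.mul_ne_top (by norm_num) (ENNReal.mul_ne_top ENNReal.ofReal_ne_top (by norm_num)))
  obtain ⟨f, hf, -, hfσ, ⟨O, hO, hM⟩, hfe⟩ := hrow (fun x => min (σ x) t)
    (hσ.inf continuousOn_const) (fun x hx => lt_min (hσ0 x hx) ht) t ht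
  have hmix : mix 0 f = f := funext fun x => funext fun j => mix_ge (Nat.zero_le _)
  rw [hmix] at hM
  have hOΛ : O = Λ := by
    obtain ⟨h, ⟨h1, h2⟩, -, -⟩ := hf
    obtain ⟨m, ⟨m1, m2⟩, -, -⟩ := hM
    apply Subset.antisymm
    · intro y hy
      rw [← (m2 y hy).2]
      exact (h1 _ (m2 y hy).1).1
    · intro y hy
      rw [← (h2 y hy).2]
      exact (m1 _ (h2 y hy).1).1
  rw [hOΛ] at hM
  have hfs : ContDiffOn ℝ ∞ f Ω := diffeo_smooth hM
  set r : Fin 3 → V → ℝ := fun i x => ‖fderiv ℝ (fun y => f y i) x - (pr i).comp (cl (F x))‖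
    with hr
  have hrm : ∀ i, AEMeasurable (fun x => ENNReal.ofReal (r i x ^ p)) (volume.restrict Ω) := by
    intro i
    have h1 : AEStronglyMeasurable (fun x => fderiv ℝ (fun y => f y i) x)
        (volume.restrict Ω) :=
      ((contDiffOn_pi.1 hfs i).continuousOn_fderiv_of_isOpen hΩ.1
        (by simp)).aestronglyMeasurable hΩ.1.measurableSet
    have h2 : AEStronglyMeasurable (fun x => (pr i).comp (cl (F x))) (volume.restrict Ω) :=
      ((ContinuousLinearMap.compL ℝ V V ℝ (pr i)).continuous.comp_aestronglyMeasurable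
        (PK.IsSob.aesm hF))
    exact ((h1.sub h2).norm.aemeasurable.pow_const p).ennreal_ofReal
  have hpt : ∀ x ∈ Ω, ∀ j, ‖fderiv ℝ f x (ev j) - cl (F x) (ev j)‖ ^ p ≤
      3 ^ p * (r 0 x ^ p + r 1 x ^ p + r 2 x ^ p) := by
    intro x hx j
    have hd : HasFDerivAt f (fderiv ℝ f x) x := diffeo_diff hΩ.1 hfs hx
    have hri : ∀ i, r i x = ‖(pr i).comp (fderiv ℝ f x - cl (F x))‖ := by
      intro i
      have h1 : fderiv ℝ (fun y => f y i) x = (pr i).comp (fderiv ℝ f x) :=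
        (hasFDerivAt_pi'.1 hd i).fderiv
      rw [hr]
      dsimp only
      rw [h1, ContinuousLinearMap.comp_sub]
    have h1 : ‖fderiv ℝ f x (ev j) - cl (F x) (ev j)‖ ≤ r 0 x + r 1 x + r 2 x := by
      have h2 := (fderiv ℝ f x - cl (F x)).le_opNorm (ev j)
      rw [hev, mul_one] at h2
      rw [hri, hri, hri]
      exact h2.trans (clm_le_rows _)
    refine (Real.rpow_le_rpow (norm_nonneg _) h1 hp0.le).trans ?_
    exact rpow_add3_le hp (norm_nonneg _) (norm_nonneg _) (norm_nonneg _)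
  refine ⟨f, hM, fun x hx => (hfσ x hx).trans (min_le_left _ _), le_trans ?_ htC⟩
  unfold err
  refine add_le_add ?_ ?_
  · calc ∫⁻ x in Ω, ENNReal.ofReal (‖f x - f₀ x‖ ^ p)
        ≤ ∫⁻ _x in Ω, ENNReal.ofReal (t ^ p) := by
          refine setLIntegral_mono' hΩ.1.measurableSet fun x hx => ?_
          exact ENNReal.ofReal_le_ofReal (Real.rpow_le_rpow (norm_nonneg _)
            ((hfσ x hx).trans (min_le_right _ _)) hp0.le)
      _ = ENNReal.ofReal (t ^ p) * volume Ω := setLIntegral_const _ _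
  · calc ∑ j, ∫⁻ x in Ω, ENNReal.ofReal (‖fderiv ℝ f x (ev j) - cl (F x) (ev j)‖ ^ p)
        ≤ ∑ _j : Fin 3, ENNReal.ofReal (3 ^ p) * (3 * ENNReal.ofReal t) := by
          refine Finset.sum_le_sum fun j _ => ?_
          calc ∫⁻ x in Ω, ENNReal.ofReal (‖fderiv ℝ f x (ev j) - cl (F x) (ev j)‖ ^ p)
              ≤ ∫⁻ x in Ω, ENNReal.ofReal (3 ^ p) * ∑ i, ENNReal.ofReal (r i x ^ p) := by
                refine setLIntegral_mono' hΩ.1.measurableSet fun x hx => ?_
                rw [← ENNReal.ofReal_sum_of_nonneg fun i _ => Real.rpow_nonneg (norm_nonneg _) p,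
                  ← ENNReal.ofReal_mul (by positivity)]
                apply ENNReal.ofReal_le_ofReal
                rw [Fin.sum_univ_three]
                exact hpt x hx j
            _ = ENNReal.ofReal (3 ^ p) * ∑ i, ∫⁻ x in Ω, ENNReal.ofReal (r i x ^ p) := by
                rw [lintegral_const_mul' _ _ ENNReal.ofReal_ne_top,
                  lintegral_finsetSum' _ fun i _ => hrm i]
            _ ≤ ENNReal.ofReal (3 ^ p) * (3 * ENNReal.ofReal t) := by
                gcongr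
                calc ∑ i, ∫⁻ x in Ω, ENNReal.ofReal (r i x ^ p)
                    ≤ ∑ _i : Fin 3, ENNReal.ofReal t :=
                      Finset.sum_le_sum fun i _ => hfe i (Nat.zero_le _)
                  _ = 3 * ENNReal.ofReal t := by simp
      _ = 3 * (ENNReal.ofReal (3 ^ p) * 3) * ENNReal.ofReal t := by
          rw [Finset.sum_const, Finset.card_univ, Fintype.card_fin, nsmul_eq_mul]
          push_cast
          ring

/-- near each point, `f k` does not decrease in the variable `k` -/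
def LocMono (Ω : Set V) (f : V → V) (k : Fin 3) : Prop :=
  ∀ a ∈ Ω, ∃ r : ℝ, 0 < r ∧ ∀ x ∈ closedBall a r, ∀ y ∈ closedBall a r,
    (∀ j, j ≠ k → x j = y j) → x k ≤ y k → f x k ≤ f y k

theorem nonDecr_of {f : V → V} (hΩ : IsOpen Ω) (hd : DepBelow 3 Ω f) {k : Fin 3}
    (hm : LocMono Ω f k) {h : V} (h0 : ∀ j < k, h j = 0) (hk : 0 ≤ h k) :
    NonDecr Ω (fun x => f x k) h := by
  intro a ha
  obtain ⟨r, hr, hmon⟩ := hm a ha
  obtain ⟨δ, hδ, hδU⟩ := nhds_basis_closedBall.mem_iff.1 (hΩ.mem_nhds ha)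
  have hR0 : 0 < min δ r := lt_min hδ hr
  have hRU : closedBall a (min δ r) ⊆ Ω :=
    (closedBall_subset_closedBall (min_le_left _ _)).trans hδU
  have hRr : closedBall a (min δ r) ⊆ closedBall a r :=
    closedBall_subset_closedBall (min_le_right _ _)
  refine ⟨min δ r, hR0, fun x hx t ht hx' => ?_⟩
  have hx1 := hx
  have hx2 := hx'
  rw [mem_closedBall, dist_pi_le_iff hR0.le] at hx1 hx2
  have hy : Function.update x k ((x + t • h) k) ∈ closedBall a (min δ r) :=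
    upd_mem hR0.le (fun j _ => by rw [← Real.dist_eq]; exact hx1 j)
      (by rw [← Real.dist_eq]; exact hx2 k)
  have e1 : f (Function.update x k ((x + t • h) k)) k = f (x + t • h) k := by
    refine hd k k.isLt _ (hRU hy) _ (hRU hx') fun i hi => ?_
    rcases hi.lt_or_eq with hlt | heq
    · rw [Function.update_of_ne hlt.ne, Pi.add_apply, Pi.smul_apply, h0 i hlt, smul_zero, add_zero]
    · rw [heq, Function.update_self]
  show f x k ≤ f (x + t • h) k
  rw [← e1]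
  refine hmon x (hRr hx) _ (hRr hy) (fun j hj => by rw [Function.update_of_ne hj]) ?_
  rw [Function.update_self, Pi.add_apply, Pi.smul_apply, smul_eq_mul]
  have := mul_nonneg ht.le hk
  linarith

/-- **increasing triangular homeomorphisms** -/
theorem fa_of_tri {f : V → V} {F : V → Mat} (hp : 1 ≤ p) (hΩ : St.IsBoundedDomain Ω)
    (hΛ : St.IsBoundedDomain Λ) (hf : St.IsHomeo Ω Λ f) (hF : St.IsSobolev p Ω f F)
    (hd : DepBelow 3 Ω f) (hm : ∀ k, LocMono Ω f k) :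
    _root_.Vale.Agent.P073.H694.FA p Ω Λ f F := by
  have hfc : ContinuousOn f Ω := by
    obtain ⟨_, -, h1, -⟩ := hf
    exact h1
  have hsg : ∀ (k : Fin 3) (h : V), (∀ j < k, h j = 0) → 0 ≤ h k →
      ∀ᵐ y ∂(volume : Measure V), y ∈ Ω → 0 ≤ cl (F y) h k := fun k h h0 hk =>
    sign hp hΩ.1 hfc hF h k (nonDecr_of hΩ.1 hd (hm k) h0 hk)
  have r3 : Row p Ω Λ f F 3 := row_three hΩ.1 hf
  have r2 : Row p Ω Λ f F 2 := row_step hp hΩ hΛ hf hF hd 2 (hsg 2) r3
  have r1 : Row p Ω Λ f F 1 := row_step hp hΩ hΛ hf hF hd 1 (hsg 1) r2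
  have r0 : Row p Ω Λ f F 0 := row_step hp hΩ hΛ hf hF hd 0 (hsg 0) r1
  exact fa_of_row hp hΩ hF r0

end Vale.Agent.P073.R2.H268
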