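import Vale.Agent.P073.MM.Stage

/-!
# P073: one term of the smoothing, with signs of directional derivatives
-/

namespace Vale.Agent.P073.R2.H268

open MeasureTheory Set Filter Topology Metric Vale.Agent.P073.St Vale.Agent.P073.AB
open Vale.Agent.P073.MM
open scoped ContDiff ENNReal

variable {E : Type*} [NormedAddCommGroup E] [NormedSpace ℝ E]

theorem stage (hA1 : SpecMollLp) {p : ℝ} (hp : 1 ≤ p) {U : Set V} (hU : IsOpen U)
    (hUb : Bornology.IsBounded U) {f : V → V} {F : V → Mat} (hf : ContinuousOn f U)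
    (hF : St.IsSobolev p U f F) {c : V → ℝ} (hc : ContDiff ℝ ∞ c)
    (hc0 : ∀ x, 0 ≤ c x) (hcs : HasCompactSupport c) (hct : tsupport c ⊆ U) {Q : V → Prop}
    {r : ℝ} (hr : 0 < r) (hQ : ∀ x y, ‖x - y‖ < r → y ∈ tsupport c → Q x) {η ε : ℝ}
    (hη : 0 < η) (hε : 0 < ε) :
    ∃ (T : V → V) (A B : V → V →L[ℝ] V), ContDiff ℝ ∞ T ∧ (∀ x, fderiv ℝ T x = A x + B x) ∧
      (∀ x, ‖T x - c x • f x‖ ≤ η) ∧
      (∀ x, ‖B x - (fderiv ℝ c x).smulRight (f x)‖ ≤ η) ∧
      ∫⁻ x, ENNReal.ofReal (‖A x - c x • cl (F x)‖ ^ p) ≤ ENNReal.ofReal ε ∧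
      (∀ x, ¬ Q x → T x = 0 ∧ A x = 0 ∧ B x = 0 ∧ c x = 0 ∧ fderiv ℝ c x = 0) ∧
      (∀ (i : Fin 3) (h : V), (∀ᵐ y ∂(volume : Measure V), y ∈ U → 0 ≤ cl (F y) h i) →
        ∀ x, 0 ≤ A x h i) ∧ Continuous A := by
  have hv : volume U ≠ ⊤ := hUb.measure_lt_top.ne
  have hoff : ∀ y, y ∉ U → c y = 0 := fun y hy =>
    image_eq_zero_of_notMem_tsupport fun h => hy (hct h)
  -- the three functions
  set u1 : V → V := fun y => c y • f y with hu1
  set u2 : V → V →L[ℝ] V := fun y => (fderiv ℝ c y).smulRight (f y) with hu2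
  set u3 : V → V →L[ℝ] V := fun y => c y • cl (F y) with hu3
  have k1 : Continuous u1 := cont_smul hU hf hc.continuous hct
  have k1s : HasCompactSupport u1 := hcs.smul_right
  have k2on : ContinuousOn u2 U := by
    have h1 : ContinuousOn (fderiv ℝ c) U := (hc.continuous_fderiv (by simp)).continuousOn
    exact ((ContinuousLinearMap.smulRightL ℝ V V).continuous₂.comp_continuousOn (h1.prodMk hf))
  have k2t : tsupport u2 ⊆ tsupport c := by
    refine Subset.trans ?_ (tsupport_fderiv_subset ℝ (f := c))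
    refine closure_mono fun y hy => ?_
    intro h0
    apply hy
    show (fderiv ℝ c y).smulRight (f y) = 0
    rw [h0]
    ext v : 1
    simp
  have k2 : Continuous u2 := k2on.continuous_of_tsupport_subset hU (k2t.trans hct)
  have k2s : HasCompactSupport u2 := hcs.of_isClosed_subset (isClosed_tsupport _) k2t
  obtain ⟨C, hC⟩ := hcs.exists_bound_of_continuous hc.continuous
  have hC0 : 0 ≤ C := (norm_nonneg _).trans (hC 0)
  have k3on : IntegrableOn u3 U :=
    (PK.IsSob.integrableOn_cl hp hv hF).bdd_smul C hc.continuous.aestronglyMeasurable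
      (ae_of_all _ hC)
  have k3 : Integrable u3 := by
    refine (integrableOn_iff_integrable_of_support_subset (s := U) (f := u3) ?_).1 k3on
    intro y hy
    by_contra h
    apply hy
    show c y • cl (F y) = 0
    rw [hoff y h, zero_smul]
  have k3s : HasCompactSupport u3 := hcs.smul_right
  have k3p : ∫⁻ x, ENNReal.ofReal (‖u3 x‖ ^ p) ≠ ⊤ := by
    have hp0 : 0 ≤ p := by linarith
    have e1 : ∀ x, ENNReal.ofReal (‖u3 x‖ ^ p) ≤
        U.indicator (fun x => ENNReal.ofReal (C ^ p) * ‖cl (F x)‖ₑ ^ p) x := by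
      intro x
      by_cases hx : x ∈ U
      · rw [indicator_of_mem hx, hu3]
        dsimp only
        rw [norm_smul, Real.mul_rpow (norm_nonneg _) (norm_nonneg _),
          ENNReal.ofReal_mul (by positivity), ← ofReal_norm_eq_enorm,
          ENNReal.ofReal_rpow_of_nonneg (norm_nonneg _) hp0]
        gcongr
        exact hC x
      · rw [indicator_of_notMem hx, hu3]
        dsimp only
        rw [hoff x hx, zero_smul, norm_zero, Real.zero_rpow (by linarith), ENNReal.ofReal_zero]
    refine ne_top_of_le_ne_top ?_ (lintegral_mono e1)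
    rw [lintegral_indicator hU.measurableSet, lintegral_const_mul' _ _ ENNReal.ofReal_ne_top]
    exact ENNReal.mul_ne_top ENNReal.ofReal_ne_top (PK.IsSob.lintegral_ne_top hp hF)
  obtain ⟨δ1, hδ1, H1⟩ := cv_unif k1 k1s hη
  obtain ⟨δ2, hδ2, H2⟩ := cv_unif k2 k2s hη
  obtain ⟨δ3, hδ3, H3⟩ := hA1 p u3 hp k3.aestronglyMeasurable k3p k3s ε hε
  set δ : ℝ := min (min δ1 δ2) (min δ3 r) with hδ
  have hδ0 : 0 < δ := lt_min (lt_min hδ1 hδ2) (lt_min hδ3 hr)
  let φ : ContDiffBump (0 : V) := ⟨δ / 2, δ, half_pos hδ0, half_lt_self hδ0⟩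
  have hφ : φ.rOut = δ := rfl
  have hw := PK.IsSob.weakDeriv hp hv hF
  refine ⟨cv φ u1, cv φ u3, cv φ u2, cv_smooth φ k1.locallyIntegrable, fun x => ?_,
    H1 φ (hφ.trans_le ((min_le_left _ _).trans (min_le_left _ _))),
    H2 φ (hφ.trans_le ((min_le_left _ _).trans (min_le_right _ _))),
    H3 φ (hφ.trans_le ((min_le_right _ _).trans (min_le_left _ _))), fun x hx => ?_,
    fun i h hsg x => ?_, (cv_smooth φ k3.locallyIntegrable).continuous⟩
  · ext v : 1
    rw [cv_weak φ hU hf hw hc hcs hct x v]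
    show _ = cv φ u3 x v + cv φ u2 x v
    rw [cv_apply φ k3.locallyIntegrable, cv_apply φ k2.locallyIntegrable]
    rfl
  · have hz : ∀ y, ‖x - y‖ < φ.rOut → y ∉ tsupport c := fun y hy ht =>
      hx (hQ x y (hy.trans_le (hφ.trans_le ((min_le_right _ _).trans (min_le_right _ _)))) ht)
    have hz0 : x ∉ tsupport c := hz x (by simpa using hδ0)
    refine ⟨cv_zero φ fun y hy => ?_, cv_zero φ fun y hy => ?_, cv_zero φ fun y hy => ?_,
      image_eq_zero_of_notMem_tsupport hz0, ?_⟩
    · show c y • f y = 0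
      rw [image_eq_zero_of_notMem_tsupport (hz y hy), zero_smul]
    · show c y • cl (F y) = 0
      rw [image_eq_zero_of_notMem_tsupport (hz y hy), zero_smul]
    · exact image_eq_zero_of_notMem_tsupport fun h => hz y hy (k2t h)
    · exact image_eq_zero_of_notMem_tsupport fun h => hz0 (tsupport_fderiv_subset ℝ h)
  · rw [cv_apply φ k3.locallyIntegrable]
    have hi : LocallyIntegrable fun y => u3 y h := by
      have := (ContinuousLinearMap.apply ℝ V h).integrable_comp k3
      exact this.locallyIntegrable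
    have e1 : cv φ (fun y => u3 y h) x i = ∫ y, φ.normed volume (x - y) * u3 y h i := by
      unfold cv
      have h2 := (ContinuousLinearMap.proj (R := ℝ) (φ := fun _ : Fin 3 => ℝ) i).integral_comp_comm
        (cv_integrable φ hi x)
      exact h2.symm
    rw [e1]
    refine integral_nonneg_of_ae ?_
    filter_upwards [hsg] with y hy
    show 0 ≤ φ.normed volume (x - y) * u3 y h i
    by_cases hyU : y ∈ U
    · have h3 := hy hyU
      have h4 : u3 y h i = c y * cl (F y) h i := by
        simp only [hu3, ContinuousLinearMap.smul_apply, Pi.smul_apply, smul_eq_mul]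
      rw [h4]
      exact mul_nonneg (φ.nonneg_normed _) (mul_nonneg (hc0 y) h3)
    · have h4 : u3 y = 0 := by rw [hu3]; simp only [hoff y hyU, zero_smul]
      rw [h4]
      simp

end Vale.Agent.P073.R2.H268
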