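import Vale.Agent.P073.R2.H268.Core

/-!
# P073: triangular homeomorphisms, one step
-/

namespace Vale.Agent.P073.R2.H268

open MeasureTheory Set Filter Topology Metric Vale.Agent.P073.St Vale.Agent.P073.AB
open Vale.Agent.P073.SQ (ev)
open Vale.Agent.P073.MM Vale.Agent.P073.MM.H694
open scoped ContDiff ENNReal

variable {p : ℝ} {Ω Λ : Set V}

/-- the `p`-energy of the difference of the derivatives of the component `j` -/
noncomputable def ener (p : ℝ) (Ω : Set V) (f : V → V) (F : V → Mat) (j : Fin 3) : ℝ≥0∞ :=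
  ∫⁻ x in Ω, ENNReal.ofReal (‖fderiv ℝ (fun y => f y j) x - (pr j).comp (cl (F x))‖ ^ p)

/-- the components from `k` on can be made smooth -/
def Row (p : ℝ) (Ω Λ : Set V) (f₀ : V → V) (F : V → Mat) (k : ℕ) : Prop :=
  ∀ σ : V → ℝ, ContinuousOn σ Ω → (∀ x ∈ Ω, 0 < σ x) → ∀ ε : ℝ, 0 < ε →
    ∃ f : V → V, St.IsHomeo Ω Λ f ∧ (∀ x ∈ Ω, ∀ j : Fin 3, (j : ℕ) < k → f x j = f₀ x j) ∧
      (∀ x ∈ Ω, ‖f x - f₀ x‖ ≤ σ x) ∧ (∃ O, IsOpen O ∧ St.IsDiffeo Ω O (mix k f)) ∧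
      ∀ j : Fin 3, k ≤ (j : ℕ) → ener p Ω f F j ≤ ENNReal.ofReal ε

theorem pt_est {p a b t z : ℝ} {d : Fin 3 → ℝ} (hp : 1 ≤ p) (ha : 0 ≤ a) (hb : 0 ≤ b)
    (ht : 0 ≤ t) (hd : ∀ i, 0 ≤ d i) (hz0 : 0 ≤ z) (hz : z ≤ 2 * a + t * b + t + ∑ i, d i) :
    z ^ p ≤ 9 ^ p * (2 ^ p * a ^ p + t ^ p * b ^ p + t ^ p + ∑ i, d i ^ p) := by
  have hp0 : 0 ≤ p := by linarith
  rw [Fin.sum_univ_three] at hz ⊢
  have h1 := rpow_add3_le hp (a := 2 * a) (b := t * b) (c := t) (by positivity) (by positivity) ht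
  have h2 := rpow_add3_le hp (hd 0) (hd 1) (hd 2)
  have d0 := hd 0
  have d1 := hd 1
  have d2 := hd 2
  have h3 := rpow_add3_le hp (a := 2 * a + t * b + t) (b := d 0 + d 1 + d 2) (c := 0)
    (by positivity) (by positivity) le_rfl
  rw [Real.mul_rpow (by norm_num) ha, Real.mul_rpow ht hb] at h1
  have h4 : z ^ p ≤ (2 * a + t * b + t + (d 0 + d 1 + d 2) + 0) ^ p :=
    Real.rpow_le_rpow hz0 (by linarith) hp0
  rw [Real.zero_rpow (by linarith : p ≠ 0)] at h3
  have h9 : (9 : ℝ) ^ p = 3 ^ p * 3 ^ p := by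
    rw [← Real.mul_rpow (by norm_num) (by norm_num)]
    norm_num
  have h3p : (0 : ℝ) ≤ 3 ^ p := by positivity
  calc z ^ p ≤ 3 ^ p * ((2 * a + t * b + t) ^ p + (d 0 + d 1 + d 2) ^ p + 0) := h4.trans h3
    _ ≤ 3 ^ p * (3 ^ p * (2 ^ p * a ^ p + t ^ p * b ^ p + t ^ p) +
        3 ^ p * (d 0 ^ p + d 1 ^ p + d 2 ^ p) + 0) := by gcongr
    _ = _ := by
      rw [h9]
      ring

/-- the energy of the new component -/
theorem energy_est {f₀ : V → V} {F : V → Mat} (hp : 1 ≤ p) (hΩ : IsOpen Ω)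
    (hF : St.IsSobolev p Ω f₀ F) {k : Fin 3} {M : V → V} (hM : ContDiffOn ℝ ∞ M Ω) {u a : V → ℝ}
    {t : ℝ} (ht : 0 < t) (ha0 : ∀ x, 0 ≤ a x)
    (ha : ∫⁻ x in Ω, ENNReal.ofReal (a x ^ p) ≤ ENNReal.ofReal t)
    (hpt : ∀ x ∈ Ω, ‖fderiv ℝ u x - (pr k).comp (cl (F x))‖ ≤
        2 * a x + t * ‖cl (F x)‖ + t + ∑ i, dd k M F i x)
    (hMe : ∀ i : Fin 3, (k : ℕ) < i → ener p Ω M F i ≤ ENNReal.ofReal t) :
    ∫⁻ x in Ω, ENNReal.ofReal (‖fderiv ℝ u x - (pr k).comp (cl (F x))‖ ^ p) ≤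
      ENNReal.ofReal (9 ^ p) * (ENNReal.ofReal (2 ^ p) * ENNReal.ofReal t +
        ENNReal.ofReal (t ^ p) * (∫⁻ x in Ω, ENNReal.ofReal (‖cl (F x)‖ ^ p)) +
        ENNReal.ofReal (t ^ p) * volume Ω + 3 * ENNReal.ofReal t) := by
  have hp0 : 0 < p := by linarith
  have hmF : AEMeasurable (fun x => ENNReal.ofReal (‖cl (F x)‖ ^ p)) (volume.restrict Ω) :=
    ((PK.IsSob.aesm hF).norm.aemeasurable.pow_const p).ennreal_ofReal
  have hmd : ∀ i, AEMeasurable (fun x => ENNReal.ofReal (dd k M F i x ^ p))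
      (volume.restrict Ω) := by
    intro i
    unfold dd
    by_cases hi : (k : ℕ) < (i : ℕ)
    · simp only [if_pos hi]
      have h1 : AEStronglyMeasurable (fun x => fderiv ℝ (fun y => M y i) x)
          (volume.restrict Ω) :=
        ((contDiffOn_pi.1 hM i).continuousOn_fderiv_of_isOpen hΩ
          (by simp)).aestronglyMeasurable hΩ.measurableSet
      have h2 : AEStronglyMeasurable (fun x => (pr i).comp (cl (F x))) (volume.restrict Ω) :=
        ((ContinuousLinearMap.compL ℝ V V ℝ (pr i)).continuous.comp_aestronglyMeasurable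
          (PK.IsSob.aesm hF))
      exact ((h1.sub h2).norm.aemeasurable.pow_const p).ennreal_ofReal
    · simp only [if_neg hi]
      exact aemeasurable_const
  have hdi : ∀ i, ∫⁻ x in Ω, ENNReal.ofReal (dd k M F i x ^ p) ≤ ENNReal.ofReal t := by
    intro i
    unfold dd
    by_cases hi : (k : ℕ) < (i : ℕ)
    · simp only [if_pos hi]
      exact hMe i hi
    · simp only [if_neg hi]
      rw [Real.zero_rpow hp0.ne', ENNReal.ofReal_zero, lintegral_zero]
      exact zero_le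
  calc ∫⁻ x in Ω, ENNReal.ofReal (‖fderiv ℝ u x - (pr k).comp (cl (F x))‖ ^ p)
      ≤ ∫⁻ x in Ω, ENNReal.ofReal (9 ^ p) *
          (ENNReal.ofReal (2 ^ p) * ENNReal.ofReal (a x ^ p) +
            ENNReal.ofReal (t ^ p) * ENNReal.ofReal (‖cl (F x)‖ ^ p) +
            ENNReal.ofReal (t ^ p) + ∑ i, ENNReal.ofReal (dd k M F i x ^ p)) := by
        refine setLIntegral_mono' hΩ.measurableSet fun x hx => ?_
        have hax := ha0 x
        have hdx : ∀ i, 0 ≤ dd k M F i x := fun i => dd_nonneg _ _ _ _ _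
        rw [← ENNReal.ofReal_sum_of_nonneg fun i _ => Real.rpow_nonneg (hdx i) p,
          ← ENNReal.ofReal_mul (by positivity),
          ← ENNReal.ofReal_mul (by positivity),
          ← ENNReal.ofReal_add (by positivity) (by positivity),
          ← ENNReal.ofReal_add (by positivity) (by positivity),
          ← ENNReal.ofReal_add (by positivity)
            (Finset.sum_nonneg fun i _ => Real.rpow_nonneg (hdx i) p),
          ← ENNReal.ofReal_mul (by positivity)]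
        exact ENNReal.ofReal_le_ofReal
          (pt_est hp hax (norm_nonneg _) ht.le hdx (norm_nonneg _) (hpt x hx))
    _ = ENNReal.ofReal (9 ^ p) * (ENNReal.ofReal (2 ^ p) *
          (∫⁻ x in Ω, ENNReal.ofReal (a x ^ p)) +
            ENNReal.ofReal (t ^ p) * (∫⁻ x in Ω, ENNReal.ofReal (‖cl (F x)‖ ^ p)) +
            ENNReal.ofReal (t ^ p) * volume Ω +
            ∑ i, ∫⁻ x in Ω, ENNReal.ofReal (dd k M F i x ^ p)) := by
        rw [lintegral_const_mul' _ _ ENNReal.ofReal_ne_top,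
          lintegral_add_right' _ (Finset.aemeasurable_fun_sum _ fun i _ => hmd i),
          lintegral_add_right' _ aemeasurable_const,
          lintegral_add_right' _ (hmF.const_mul _),
          lintegral_const_mul' _ _ ENNReal.ofReal_ne_top,
          lintegral_const_mul' _ _ ENNReal.ofReal_ne_top, setLIntegral_const,
          lintegral_finsetSum' _ fun i _ => hmd i]
    _ ≤ _ := by
        gcongr
        calc ∑ i, ∫⁻ x in Ω, ENNReal.ofReal (dd k M F i x ^ p)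
            ≤ ∑ _i : Fin 3, ENNReal.ofReal t := Finset.sum_le_sum fun i _ => hdi i
          _ = 3 * ENNReal.ofReal t := by simp

theorem exists_t {p ε : ℝ} (hp : 1 ≤ p) (hε : 0 < ε) {EF v : ℝ≥0∞} (hFe : EF ≠ ⊤)
    (hv : v ≠ ⊤) : ∃ t : ℝ, 0 < t ∧ t ≤ 1 ∧ t ≤ ε ∧
      ENNReal.ofReal (9 ^ p) * (ENNReal.ofReal (2 ^ p) * ENNReal.ofReal t +
        ENNReal.ofReal (t ^ p) * EF + ENNReal.ofReal (t ^ p) * v + 3 * ENNReal.ofReal t) ≤
          ENNReal.ofReal ε := by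
  have hp0 : 0 < p := by linarith
  have t0 : Tendsto (fun n : ℕ => 1 / ((n : ℝ) + 1)) atTop (𝓝 0) :=
    tendsto_one_div_add_atTop_nhds_zero_nat
  have t1 : Tendsto (fun n : ℕ => ENNReal.ofReal (1 / ((n : ℝ) + 1))) atTop (𝓝 0) := by
    simpa using ENNReal.tendsto_ofReal t0
  have t2 : Tendsto (fun n : ℕ => ENNReal.ofReal ((1 / ((n : ℝ) + 1)) ^ p)) atTop (𝓝 0) := by
    have h2 : Tendsto (fun n : ℕ => (1 / ((n : ℝ) + 1)) ^ p) atTop (𝓝 (0 ^ p)) :=
      t0.rpow_const (Or.inr hp0.le)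
    rw [Real.zero_rpow hp0.ne'] at h2
    simpa using ENNReal.tendsto_ofReal h2
  have t3 := ENNReal.Tendsto.mul_const (b := v) t2 (Or.inr hv)
  rw [zero_mul] at t3
  have t4 := ENNReal.Tendsto.mul_const (b := EF) t2 (Or.inr hFe)
  rw [zero_mul] at t4
  have t5 := ENNReal.Tendsto.const_mul (a := ENNReal.ofReal (2 ^ p)) t1
    (Or.inr ENNReal.ofReal_ne_top)
  rw [mul_zero] at t5
  have t6 := ENNReal.Tendsto.const_mul (a := 3) t1 (Or.inr (by norm_num))
  rw [mul_zero] at t6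
  have t7 := ENNReal.Tendsto.const_mul (a := ENNReal.ofReal (9 ^ p))
    (((t5.add t4).add t3).add t6) (Or.inr ENNReal.ofReal_ne_top)
  simp only [add_zero, mul_zero] at t7
  obtain ⟨n, hn, hn1⟩ := ((t7.eventually (gt_mem_nhds (ENNReal.ofReal_pos.2 hε))).and
    (t0.eventually (gt_mem_nhds hε))).exists
  refine ⟨1 / ((n : ℝ) + 1), by positivity, ?_, hn1.le, hn.le⟩
  rw [div_le_one (by positivity)]
  have : (0 : ℝ) ≤ n := Nat.cast_nonneg n
  linarith

/-- **one step** -/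
theorem row_step {f₀ : V → V} {F : V → Mat} (hp : 1 ≤ p) (hΩ : St.IsBoundedDomain Ω)
    (hΛ : St.IsBoundedDomain Λ) (hf₀ : St.IsHomeo Ω Λ f₀) (hF : St.IsSobolev p Ω f₀ F)
    (hdep : DepBelow 3 Ω f₀) (k : Fin 3)
    (hsg : ∀ h : V, (∀ j < k, h j = 0) → 0 ≤ h k →
      ∀ᵐ y ∂(volume : Measure V), y ∈ Ω → 0 ≤ cl (F y) h k)
    (hrow : Row p Ω Λ f₀ F (k + 1)) : Row p Ω Λ f₀ F k := by
  intro σ hσ hσ0 ε hε
  have hp0 : 0 < p := by linarith
  have hUb := PK.isBounded_of_domain hΩ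
  have hfc : ContinuousOn f₀ Ω := by
    obtain ⟨_, -, h1, -⟩ := hf₀
    exact h1
  obtain ⟨R, hR1, hR⟩ : ∃ R : ℝ, 1 ≤ R ∧ ∀ x ∈ Ω, ‖x‖ ≤ R := by
    obtain ⟨R, hR⟩ := hUb.exists_norm_le
    exact ⟨max R 1, le_max_right _ _, fun x hx => (hR x hx).trans (le_max_left _ _)⟩
  have hv : volume Ω ≠ ⊤ := hUb.measure_lt_top.ne
  have hFe : ∫⁻ x in Ω, ENNReal.ofReal (‖cl (F x)‖ ^ p) ≠ ⊤ := by
    have h1 := PK.IsSob.lintegral_ne_top hp hF
    simp_rw [ofReal_norm_rpow hp0.le]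
    exact h1
  obtain ⟨t, ht, ht1, htε, htC⟩ := exists_t hp hε hFe hv
  obtain ⟨f, hf, hff, hfσ, ⟨O, hO, hM⟩, hfe⟩ := hrow σ hσ hσ0 t ht
  -- the dependence
  have hd : DepBelow k Ω f := by
    intro j hj x hx y hy h
    rw [hff x hx j (by omega), hff y hy j (by omega)]
    exact hdep j j.isLt x hx y hy h
  obtain ⟨Θ, hΘ, hV⟩ := mix_homeo hO hf (homeo_of_diffeo hM) hd
  have hWV : ∀ x ∈ Ω, mix k f x = rep k (mix (k + 1) f) (fun x => f₀ x k) x := by
    intro x hx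
    funext j
    by_cases hj : j = k
    · subst hj
      rw [rep_self, mix_ge le_rfl]
      exact hff x hx j (by omega)
    · rw [rep_ne hj]
      have hj' : (j : ℕ) ≠ k := fun h => hj (Fin.ext h)
      by_cases hlt : (j : ℕ) < k
      · rw [mix_lt hlt, mix_lt (by omega)]
      · rw [mix_ge (by omega), mix_ge (by omega)]
  have hW : St.IsHomeo Ω Θ (rep k (mix (k + 1) f) fun x => f₀ x k) := homeo_congr hV hWV
  obtain ⟨n, hn, hWc, hnc⟩ := id hW
  obtain ⟨m, hm, hMs, hms⟩ := id hM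
  -- the fine closeness
  have hΘc : IsPreconnected Θ := by
    have h1 : rep k (mix (k + 1) f) (fun x => f₀ x k) '' Ω = Θ := by
      apply Subset.antisymm
      · rintro _ ⟨x, hx, rfl⟩
        exact (hn.1 x hx).1
      · intro y hy
        exact ⟨n y, (hn.2 y hy).1, (hn.2 y hy).2⟩
    rw [← h1]
    exact hΩ.2.1.isPreconnected.image _ hWc
  have hΘn : Θᶜ.Nonempty := by
    rw [nonempty_compl]
    intro hu
    apply NormedSpace.unbounded_univ ℝ V
    obtain ⟨R', hR'⟩ := (PK.isBounded_of_domain hΛ).exists_norm_le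
    have hfΛ : ∀ x ∈ Ω, f x ∈ Λ := by
      obtain ⟨_, ⟨h1, -⟩, -, -⟩ := hf
      exact fun x hx => (h1 x hx).1
    refine (Metric.isBounded_closedBall (x := (0 : V)) (r := max R R')).subset fun y _ => ?_
    rw [mem_closedBall_zero_iff]
    obtain ⟨h1, h2⟩ := hn.2 y (by rw [hu]; exact mem_univ y)
    rw [← h2, ← hWV _ h1, pi_norm_le_iff_of_nonneg (le_max_of_le_left (by linarith))]
    intro j
    by_cases hj : (j : ℕ) < k
    · rw [mix_lt hj]
      exact ((norm_le_pi_norm _ j).trans (hR _ h1)).trans (le_max_left _ _)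
    · rw [mix_ge (not_lt.1 hj)]
      exact ((norm_le_pi_norm _ j).trans (hR' _ (hfΛ _ h1))).trans (le_max_right _ _)
  have hbij : BijOn (rep k (mix (k + 1) f) fun x => f₀ x k) Ω Θ :=
    ⟨fun x hx => (hn.1 x hx).1, fun x hx y hy h => by
      rw [← (hn.1 x hx).2, h, (hn.1 y hy).2], fun y hy => ⟨n y, (hn.2 y hy).1, (hn.2 y hy).2⟩⟩
  obtain ⟨δ₀, hδc, hδ0, hδ⟩ := Vale.Agent.P073.exists_delta_diffeo hΩ.1 hΘ hΘc hΘn hWc hnc hbij
    ⟨fun x hx => (hn.1 x hx).2, fun y hy => (hn.2 y hy).2⟩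
  -- the new component
  obtain ⟨u, a, hus, huf, hui, ha0, haE, hue⟩ := core hp hΩ.1 hUb hfc hF hsg hR1 hR hO
    (contDiffOn_pi.2 hMs) (contDiffOn_pi.2 hms) hm (fun x j hj => mix_lt (by omega)) hΘ hn hWc hnc
    (s := fun x => min (σ x) (δ₀ x)) (hσ.inf hδc) (fun x hx => lt_min (hσ0 x hx) (hδ0 x hx)) ht ht1
  obtain ⟨hb, k', hk', hinv⟩ := hδ _ (rep_smooth (contDiffOn_pi.2 hMs) hus) hui fun x hx =>
    rep_dist.trans ((huf x hx).trans (min_le_right _ _))
  have hmix : mix k (rep k f u) = rep k (mix (k + 1) f) u := by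
    funext x j
    by_cases hj : j = k
    · subst hj
      rw [rep_self, mix_ge le_rfl, rep_self]
    · rw [rep_ne hj]
      have hj' : (j : ℕ) ≠ k := fun h => hj (Fin.ext h)
      by_cases hlt : (j : ℕ) < k
      · rw [mix_lt hlt, mix_lt (by omega)]
      · rw [mix_ge (by omega), mix_ge (by omega), rep_ne hj]
  have hG : St.IsDiffeo Ω Θ (mix k (rep k f u)) := by
    rw [hmix]
    refine ⟨k', ⟨fun x hx => ⟨hb.mapsTo hx, hinv.1 hx⟩, fun y hy => ?_⟩,
      contDiffOn_pi.1 (rep_smooth (contDiffOn_pi.2 hMs) hus), contDiffOn_pi.1 hk'⟩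
    obtain ⟨x, hx, rfl⟩ := hb.surjOn hy
    have h4 := hinv.1 hx
    rw [h4]
    exact ⟨hx, rfl⟩
  have hsame : ∀ x, ∀ j : Fin 3, (j : ℕ) < k → rep k f u x j = f x j := fun x j hj =>
    rep_ne fun h => by subst h; exact lt_irrefl _ hj
  refine ⟨rep k f u, new_homeo hf hV (homeo_of_diffeo hG) hd fun x _ => hsame x,
    fun x hx j hj => ?_, fun x hx => ?_, ⟨Θ, hΘ, hG⟩, fun j hj => ?_⟩
  · rw [hsame x j hj]
    exact hff x hx j (by omega)
  · rw [pi_norm_le_iff_of_nonneg (hσ0 x hx).le]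
    intro j
    rw [Pi.sub_apply, Real.norm_eq_abs]
    by_cases hj : j = k
    · subst hj
      rw [rep_self]
      exact (huf x hx).trans (min_le_left _ _)
    · rw [rep_ne hj]
      have h1 := norm_le_pi_norm (f x - f₀ x) j
      rw [Pi.sub_apply, Real.norm_eq_abs] at h1
      exact h1.trans (hfσ x hx)
  · by_cases hjk : j = k
    · subst hjk
      have h1 : (fun y => rep j f u y j) = u := funext fun y => rep_self
      unfold ener
      rw [h1]
      refine (energy_est hp hΩ.1 hF (contDiffOn_pi.2 hMs) ht ha0 haE hue fun i hi => ?_).trans htC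
      have h2 : (fun y => mix (j + 1) f y i) = fun y => f y i :=
        funext fun y => mix_ge (by omega)
      have h3 := hfe i (by omega)
      unfold ener at h3 ⊢
      rw [h2]
      exact h3
    · have h1 : (fun y => rep k f u y j) = fun y => f y j := funext fun y => rep_ne hjk
      have hj' : (j : ℕ) ≠ k := fun h => hjk (Fin.ext h)
      have h3 := hfe j (by omega)
      unfold ener at h3 ⊢
      rw [h1]
      exact h3.trans (ENNReal.ofReal_le_ofReal htε)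

end Vale.Agent.P073.R2.H268
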