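import Vale.Agent.P073.R2.H268.Vert

/-!
# P073: triangular homeomorphisms, topology
-/

namespace Vale.Agent.P073.R2.H268

open MeasureTheory Set Filter Topology Metric Vale.Agent.P073.St
open scoped ContDiff ENNReal

variable {Ω Λ Ξ : Set V} {f g : V → V}

/-- `x` in the first `k` coordinates, `f x` in the others -/
def mix (k : ℕ) (f : V → V) (x : V) : V := fun j => if (j : ℕ) < k then x j else f x j

theorem mix_lt {k : ℕ} {f : V → V} {x : V} {j : Fin 3} (h : (j : ℕ) < k) : mix k f x j = x j :=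
  if_pos h

theorem mix_ge {k : ℕ} {f : V → V} {x : V} {j : Fin 3} (h : k ≤ (j : ℕ)) :
    mix k f x j = f x j :=
  if_neg (not_lt.2 h)

/-- component `j < k` of `f` depends only on the coordinates up to `j` -/
def DepBelow (k : ℕ) (Ω : Set V) (f : V → V) : Prop :=
  ∀ j : Fin 3, (j : ℕ) < k → ∀ x ∈ Ω, ∀ y ∈ Ω, (∀ i ≤ j, x i = y i) → f x j = f y j

theorem homeo_symm (hf : IsHomeo Ω Λ f) : ∃ h : V → V, IsHomeo Λ Ω h ∧ (∀ x ∈ Ω, h (f x) = x) ∧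
    ∀ y ∈ Λ, f (h y) = y := by
  obtain ⟨h, ⟨h1, h2⟩, h3, h4⟩ := hf
  exact ⟨h, ⟨f, ⟨h2, h1⟩, h4, h3⟩, fun x hx => (h1 x hx).2, fun y hy => (h2 y hy).2⟩

theorem homeo_comp (hf : IsHomeo Ω Λ f) (hg : IsHomeo Λ Ξ g) :
    IsHomeo Ω Ξ (fun x => g (f x)) := by
  obtain ⟨h, ⟨h1, h2⟩, h3, h4⟩ := hf
  obtain ⟨k, ⟨k1, k2⟩, k3, k4⟩ := hg
  refine ⟨fun z => h (k z), ⟨fun x hx => ⟨(k1 _ (h1 x hx).1).1, ?_⟩, fun z hz =>
    ⟨(h2 _ (k2 z hz).1).1, ?_⟩⟩, k3.comp h3 fun x hx => (h1 x hx).1,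
    h4.comp k4 fun z hz => (k2 z hz).1⟩
  · show h (k (g (f x))) = x
    rw [(k1 _ (h1 x hx).1).2, (h1 x hx).2]
  · show g (f (h (k z))) = z
    rw [(h2 _ (k2 z hz).1).2, (k2 z hz).2]

theorem homeo_congr (hf : IsHomeo Ω Λ f) (h : ∀ x ∈ Ω, f x = g x) : IsHomeo Ω Λ g := by
  obtain ⟨k, ⟨h1, h2⟩, h3, h4⟩ := hf
  refine ⟨k, ⟨fun x hx => ?_, fun y hy => ⟨(h2 y hy).1, ?_⟩⟩, h3.congr fun x hx => (h x hx).symm,
    h4⟩
  · rw [← h x hx]
    exact h1 x hx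
  · rw [← h _ (h2 y hy).1]
    exact (h2 y hy).2

theorem homeo_of_diffeo (hg : IsDiffeo Ω Λ g) : IsHomeo Ω Λ g := by
  obtain ⟨h, h1, h2, h3⟩ := hg
  exact ⟨h, h1, (contDiffOn_pi.2 h2).continuousOn, (contDiffOn_pi.2 h3).continuousOn⟩

theorem mix_inj {k : ℕ} (hd : DepBelow k Ω f) (hf : IsHomeo Ω Λ f) {x y : V} (hx : x ∈ Ω)
    (hy : y ∈ Ω) (h : mix k f x = mix k f y) : x = y := by
  obtain ⟨m, ⟨h1, -⟩, -, -⟩ := hf
  have h2 : f x = f y := by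
    funext j
    by_cases hj : (j : ℕ) < k
    · refine hd j hj x hx y hy fun i hi => ?_
      have hi' : (i : ℕ) < k := lt_of_le_of_lt (Fin.le_def.1 hi) hj
      have h3 := congrFun h i
      rwa [mix_lt hi', mix_lt hi'] at h3
    · have h3 := congrFun h j
      rwa [mix_ge (not_lt.1 hj), mix_ge (not_lt.1 hj)] at h3
  rw [← (h1 x hx).2, h2, (h1 y hy).2]

/-- the last coordinate but one -/
theorem mix_homeo {k : Fin 3} {O : Set V} (hO : IsOpen O) (hf : IsHomeo Ω Λ f)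
    (hG : IsHomeo Ω O (mix (k + 1) f)) (hd : DepBelow k Ω f) :
    ∃ Θ : Set V, IsOpen Θ ∧ IsHomeo Ω Θ (mix k f) := by
  obtain ⟨h, hh, hh1, hh2⟩ := homeo_symm hG
  have hmO : ∀ x ∈ Ω, mix (k + 1) f x ∈ O := by
    obtain ⟨_, ⟨h1, -⟩, -, -⟩ := hG
    exact fun x hx => (h1 x hx).1
  have hmΩ : ∀ y ∈ O, h y ∈ Ω := by
    obtain ⟨_, ⟨h1, -⟩, -, -⟩ := hh
    exact fun x hx => (h1 x hx).1
  have hhc : ContinuousOn h O := by
    obtain ⟨_, -, h1, -⟩ := hh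
    exact h1
  have hfc : ContinuousOn f Ω := by
    obtain ⟨_, -, h1, -⟩ := hf
    exact h1
  set v : V → ℝ := fun q => f (h q) k with hv
  have hvc : ContinuousOn v O :=
    (continuous_apply k).comp_continuousOn (hfc.comp hhc hmΩ)
  have hT : ∀ x ∈ Ω, vert k v (mix (k + 1) f x) = mix k f x := by
    intro x hx
    funext j
    by_cases hj : j = k
    · subst hj
      unfold vert
      rw [Function.update_self, mix_ge le_rfl, hv]
      dsimp only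
      rw [hh1 x hx]
    · unfold vert
      rw [Function.update_of_ne hj]
      have hj' : (j : ℕ) ≠ k := fun h => hj (Fin.ext h)
      by_cases hlt : (j : ℕ) < k
      · rw [mix_lt hlt, mix_lt (by omega)]
      · rw [mix_ge (by omega), mix_ge (by omega)]
  have hi : InjOn (vert k v) O := by
    intro q hq q' hq' h1
    rw [← hh2 q hq, ← hh2 q' hq', hT _ (hmΩ q hq), hT _ (hmΩ q' hq')] at h1
    rw [← hh2 q hq, ← hh2 q' hq', mix_inj hd hf (hmΩ q hq) (hmΩ q' hq') h1]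
  obtain ⟨h1, h2⟩ := vert_homeo hO hvc hi
  exact ⟨_, h1, homeo_congr (homeo_comp hG h2) hT⟩

/-- the new homeomorphism -/
theorem new_homeo {k : ℕ} {Θ : Set V} (hf : IsHomeo Ω Λ f) (hV : IsHomeo Ω Θ (mix k f))
    (hG : IsHomeo Ω Θ (mix k g)) (hd : DepBelow k Ω f)
    (he : ∀ x ∈ Ω, ∀ j : Fin 3, (j : ℕ) < k → g x j = f x j) : IsHomeo Ω Λ g := by
  obtain ⟨h, hh, hh1, hh2⟩ := homeo_symm hV
  refine homeo_congr (homeo_comp hG (homeo_comp hh hf)) fun x hx => ?_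
  have hx' : mix k g x ∈ Θ := by
    obtain ⟨_, ⟨h1, -⟩, -, -⟩ := hG
    exact (h1 x hx).1
  have hz : h (mix k g x) ∈ Ω := by
    obtain ⟨_, ⟨h1, -⟩, -, -⟩ := hh
    exact (h1 _ hx').1
  have h3 := hh2 _ hx'
  funext j
  by_cases hj : (j : ℕ) < k
  · rw [he x hx j hj]
    refine hd j hj _ hz x hx fun i hi => ?_
    have hi' : (i : ℕ) < k := lt_of_le_of_lt (Fin.le_def.1 hi) hj
    have h4 := congrFun h3 i
    rwa [mix_lt hi', mix_lt hi'] at h4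
  · have h4 := congrFun h3 j
    rwa [mix_ge (not_lt.1 hj), mix_ge (not_lt.1 hj)] at h4

end Vale.Agent.P073.R2.H268
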