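import Vale.Agent.P073.R2.H268.Auto
import Vale.Agent.P073.R2.H580.Defs3
import Vale.Agent.P073.R2.H580.Coord

/-!
# P073: triangular homeomorphisms are layered
-/

namespace Vale.Agent.P073.R2.H268

open MeasureTheory Set Filter Topology Metric Vale.Agent.P073.St Vale.Agent.P073.AB
open Vale.Agent.P073.R2.H580 (TriCoord LayerCoord Layered exists_equiv' domain_lin' diffeo_lin'
  diffeo_homeo)
open scoped ContDiff ENNReal

variable {U W : Set V} {f : V → V}

theorem norm_le_euc' (v : V) : ‖v‖ ≤ euc v := by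
  unfold euc
  rw [pi_norm_le_iff_of_nonneg (Real.sqrt_nonneg _)]
  intro j
  rw [Real.norm_eq_abs, ← Real.sqrt_sq_eq_abs]
  exact Real.sqrt_le_sqrt
    (Finset.single_le_sum (f := fun i => v i ^ 2) (fun i _ => sq_nonneg _) (Finset.mem_univ j))

/-- near each point of `U`, the component `i` depends only on the coordinates up to `i` -/
def LocDep (U : Set V) (f : V → V) : Prop :=
  ∀ i : Fin 3, ∀ z ∈ U, ∃ ρ : ℝ, 0 < ρ ∧ ∀ x ∈ ball z ρ, ∀ y ∈ ball z ρ,
    (∀ j ≤ i, x j = y j) → f x i = f y i

theorem depCube_of_loc (hfc : ContinuousOn f U) (hd : LocDep U f) : DepCube U f := by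
  intro a r hsub j _ x hx y hy hxy
  have hseg : ∀ t ∈ Icc (0 : ℝ) 1, x + t • (y - x) ∈ closedBall a r := fun t ht =>
    (convex_closedBall a r).add_smul_sub_mem hx hy ht
  have hc : ContinuousOn (fun t : ℝ => f (x + t • (y - x)) j) (Icc 0 1) := by
    have h1 : ContinuousOn (fun y => f y j) U := (continuous_apply j).comp_continuousOn hfc
    refine h1.comp ?_ fun t ht => hsub (hseg t ht)
    exact (continuous_const.add (continuous_id.smul continuous_const)).continuousOn
  have hder : ∀ t ∈ Ico (0 : ℝ) 1,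
      HasDerivWithinAt (fun t : ℝ => f (x + t • (y - x)) j) 0 (Ici t) t := by
    intro t ht
    obtain ⟨ρ, hρ, h1⟩ := hd j _ (hsub (hseg t ⟨ht.1, ht.2.le⟩))
    have hcont : Continuous fun s : ℝ => x + s • (y - x) :=
      continuous_const.add (continuous_id.smul continuous_const)
    have h2 : ∀ᶠ s in 𝓝 t, x + s • (y - x) ∈ ball (x + t • (y - x)) ρ :=
      hcont.continuousAt.eventually (ball_mem_nhds _ hρ)
    have h3 : (fun s : ℝ => f (x + s • (y - x)) j) =ᶠ[𝓝 t] fun _ => f (x + t • (y - x)) j := by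
      filter_upwards [h2] with s hs
      refine h1 _ hs _ (mem_ball_self hρ) fun i hi => ?_
      simp only [Pi.add_apply, Pi.smul_apply, Pi.sub_apply, hxy i hi, sub_self, smul_zero]
    exact ((hasDerivAt_const t (f (x + t • (y - x)) j)).congr_of_eventuallyEq
      h3).hasDerivWithinAt
  have h := constant_of_has_deriv_right_zero hc hder 1 ⟨zero_le_one, le_rfl⟩
  simp only [one_smul, zero_smul, add_zero, add_sub_cancel] at h
  exact h.symm

/-- the signs of a triangular homeomorphism -/
theorem exists_signs (hU : St.IsBoundedDomain U) (hW : IsOpen W) (hf : St.IsHomeo U W f)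
    (hd : LocDep U f) : ∃ s : Fin 3 → ℝ, (∀ k, s k = 1 ∨ s k = -1) ∧
      ∀ k, ∀ a ∈ U, ∃ r : ℝ, 0 < r ∧ ∀ x ∈ closedBall a r, ∀ y ∈ closedBall a r,
        (∀ j, j ≠ k → x j = y j) → x k ≤ y k → s k * f x k ≤ s k * f y k := by
  have hfc : ContinuousOn f U := by
    obtain ⟨_, -, h1, -⟩ := hf
    exact h1
  have h1 : ∀ k, ∃ s : ℝ, (s = 1 ∨ s = -1) ∧
      ∀ a ∈ U, ∃ r : ℝ, 0 < r ∧ ∀ x ∈ closedBall a r, ∀ y ∈ closedBall a r,
        (∀ j, j ≠ k → x j = y j) → x k ≤ y k → s * f x k ≤ s * f y k := by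
    intro k
    rcases global_sign hf hW (depCube_of_loc hfc hd) hU.1 hU.2.1.isPreconnected hfc k with h | h
    · refine ⟨1, Or.inl rfl, fun a ha => ?_⟩
      obtain ⟨r, hr, h2⟩ := h a ha
      refine ⟨r, hr, fun x hx y hy hxy hle => ?_⟩
      rw [one_mul, one_mul]
      exact h2 x hx y hy hxy hle
    · refine ⟨-1, Or.inr rfl, fun a ha => ?_⟩
      obtain ⟨r, hr, h2⟩ := h a ha
      refine ⟨r, hr, fun x hx y hy hxy hle => ?_⟩
      have h3 := h2 x hx y hy hxy hle
      linarith
  choose s hs1 hs2 using h1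
  exact ⟨s, hs1, hs2⟩

/-- **triangular homeomorphisms are layered** -/
theorem layer_of_tri (hf : St.IsHomeo U W f) (h : TriCoord U W f) : LayerCoord U W f := by
  obtain ⟨U', W', a, b, hU', hW', ha, hb, ht⟩ := h
  have hf' : St.IsHomeo U' W' (fun x => b (f (a x))) :=
    homeo_comp (homeo_comp (diffeo_homeo ha) hf) (diffeo_homeo hb)
  have hd : LocDep U' (fun x => b (f (a x))) := by
    intro i z hz
    obtain ⟨ρ, hρ, h1⟩ := ht z hz
    refine ⟨ρ / 2, half_pos hρ, fun x hx y hy hxy => ?_⟩
    have e : ∀ w ∈ ball z (ρ / 2), euc (w - z) < ρ := by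
      intro w hw
      rw [mem_ball, dist_eq_norm] at hw
      have := euc_le_norm (w - z)
      linarith
    obtain ⟨q0, q1⟩ := h1 x y (e x hx) (e y hy)
    fin_cases i
    · exact q0 (hxy 0 le_rfl)
    · exact q1 (hxy 0 (by decide)) (hxy 1 le_rfl)
    · have e2 : x = y := by
        funext j
        exact hxy j (by fin_cases j <;> decide)
      rw [e2]
  obtain ⟨s, hs, hm⟩ := exists_signs hU' hW'.1 hf' hd
  have hs0 : ∀ k, s k ≠ 0 := fun k => by
    rcases hs k with h | h <;> rw [h] <;> norm_num
  set A : Mat := fun i j => if i = j then s i else 0 with hA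
  have hap : ∀ v : V, ∀ i, ap A v i = s i * v i := by
    intro v i
    simp [ap, hA]
  have hAn : NonSing A := by
    intro v hv
    funext i
    have h1 := congrFun hv i
    rw [hap] at h1
    exact (mul_eq_zero.1 h1).resolve_left (hs0 i)
  obtain ⟨T, hT⟩ := exists_equiv' hAn
  have hTi : ∀ v : V, ∀ i, T v i = s i * v i := fun v i => by rw [hT, hap]
  refine ⟨fun i => (i : ℕ), 0, U', T '' W', a, fun x => T (b x), hU', domain_lin' T hW', ha,
    diffeo_lin' T hb, fun j hj => absurd hj (Nat.not_lt_zero _),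
    fun x _ h _ j hj => absurd hj (Nat.not_lt_zero _), fun i _ z hz => ?_, 1, fun k _ h hh => ?_⟩
  · obtain ⟨ρ, hρ, h1⟩ := hd i z hz
    refine ⟨ρ, hρ, fun x y hx hy hxy => ?_⟩
    show T (b (f (a x))) i = T (b (f (a y))) i
    rw [hTi, hTi]
    have e : ∀ w, euc (w - z) < ρ → w ∈ ball z ρ := by
      intro w hw
      rw [mem_ball, dist_eq_norm]
      exact (norm_le_euc' (w - z)).trans_lt hw
    have h2 : b (f (a x)) i = b (f (a y)) i :=
      h1 x (e x hx) y (e y hy) fun j hj => hxy j (Fin.le_def.1 hj)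
    rw [h2]
  · have he : euc h ^ 2 = ∑ i, h i * h i := by
      rw [euc, Real.sq_sqrt (Finset.sum_nonneg fun i _ => sq_nonneg _)]
      exact Finset.sum_congr rfl fun i _ => by ring
    refine ⟨h, hh, by rw [one_mul], he.le, fun z hz => ?_⟩
    by_cases hk : k < 3
    · set K : Fin 3 := ⟨k, hk⟩ with hK
      have hj : ∀ j, j ≠ K → h j = 0 := fun j hj => hh j fun h1 => hj (Fin.ext h1)
      obtain ⟨r, hr, h1⟩ := hm K z hz
      refine ⟨min (r / 2) (r / (2 * (1 + |h K|))), lt_min (half_pos hr) (by positivity),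
        fun x t hx ht0 ht1 => ?_⟩
      have hsum : ∀ w : V, ∑ i, h i * T (b (f (a w))) i = h K * (s K * b (f (a w)) K) := by
        intro w
        rw [Finset.sum_eq_single K (fun j _ hjK => by rw [hj j hjK, zero_mul])
          (fun h => absurd (Finset.mem_univ K) h), hTi]
      show ∑ i, h i * T (b (f (a x))) i ≤ ∑ i, h i * T (b (f (a (x + t • h)))) i
      rw [hsum, hsum]
      have hxr : ‖x - z‖ < r / 2 :=
        (norm_le_euc' (x - z)).trans_lt (hx.trans_le (min_le_left _ _))
      have hhn : ‖h‖ = |h K| := by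
        apply le_antisymm
        · rw [pi_norm_le_iff_of_nonneg (abs_nonneg _)]
          intro j
          by_cases hjK : j = K
          · rw [hjK, Real.norm_eq_abs]
          · rw [hj j hjK, norm_zero]
            exact abs_nonneg _
        · rw [← Real.norm_eq_abs]
          exact norm_le_pi_norm h K
      have hth : ‖t • h‖ ≤ r / 2 := by
        rw [norm_smul, Real.norm_of_nonneg ht0, hhn]
        have h2 : t ≤ r / (2 * (1 + |h K|)) := (ht1.le).trans (min_le_right _ _)
        rw [le_div_iff₀ (by positivity)] at h2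
        nlinarith [abs_nonneg (h K)]
      have hx1 : x ∈ closedBall z r := by
        rw [mem_closedBall, dist_eq_norm]
        linarith
      have hx2 : x + t • h ∈ closedBall z r := by
        rw [mem_closedBall, dist_eq_norm]
        have h2 : x + t • h - z = (x - z) + t • h := by abel
        rw [h2]
        have := norm_add_le (x - z) (t • h)
        linarith
      have hco : ∀ j, j ≠ K → x j = (x + t • h) j := fun j hjK => by
        rw [Pi.add_apply, Pi.smul_apply, hj j hjK, smul_zero, add_zero]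
      have hcoK : (x + t • h) K = x K + t * h K := by
        rw [Pi.add_apply, Pi.smul_apply, smul_eq_mul]
      rcases le_total 0 (h K) with h0 | h0
      · refine mul_le_mul_of_nonneg_left ?_ h0
        refine h1 x hx1 _ hx2 hco ?_
        rw [hcoK]
        have := mul_nonneg ht0 h0
        linarith
      · refine mul_le_mul_of_nonpos_left ?_ h0
        refine h1 _ hx2 x hx1 (fun j hjK => (hco j hjK).symm) ?_
        rw [hcoK]
        have := mul_nonpos_of_nonneg_of_nonpos ht0 h0
        linarith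
    · have h0 : h = 0 := by
        funext j
        exact hh j fun h1 => hk (h1 ▸ j.isLt)
      refine ⟨1, one_pos, fun x t _ _ _ => ?_⟩
      simp [h0]

end Vale.Agent.P073.R2.H268
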