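import Vale.Agent.P073.St

/-!
# P073: changing one coordinate
-/

namespace Vale.Agent.P073.R2.H268

open MeasureTheory Set Filter Topology Metric Vale.Agent.P073.St

/-- `q` with the coordinate `k` replaced by `v q` -/
noncomputable def vert (k : Fin 3) (v : V → ℝ) (q : V) : V := Function.update q k (v q)

theorem continuous_upd (k : Fin 3) : Continuous fun z : V × ℝ => Function.update z.1 k z.2 :=
  continuous_fst.update k continuous_snd

theorem continuous_updr (k : Fin 3) (y : V) : Continuous fun s : ℝ => Function.update y k s :=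
  (continuous_upd k).comp (continuous_const.prodMk continuous_id)

theorem upd_mem {q₀ y : V} {k : Fin 3} {r s : ℝ} (hr : 0 ≤ r)
    (hy : ∀ j, j ≠ k → |y j - q₀ j| ≤ r) (hs : |s - q₀ k| ≤ r) :
    Function.update y k s ∈ closedBall q₀ r := by
  rw [mem_closedBall, dist_pi_le_iff hr]
  intro j
  rw [Real.dist_eq]
  by_cases h : j = k
  · subst h
    rw [Function.update_self]
    exact hs
  · rw [Function.update_of_ne h]
    exact hy j h

theorem vert_nhds {O : Set V} (hO : IsOpen O) {v : V → ℝ} (hv : ContinuousOn v O) {k : Fin 3}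
    (hi : InjOn (vert k v) O) {q₀ : V} {r : ℝ} (hr : 0 < r) (hrO : closedBall q₀ r ⊆ O) :
    ∀ᶠ y in 𝓝 (vert k v q₀), ∃ q ∈ closedBall q₀ r, vert k v q = y := by
  set a : ℝ := q₀ k - r with ha
  set b : ℝ := q₀ k + r with hb
  have hab : a ≤ b := by linarith
  have hself : ∀ j, j ≠ k → |q₀ j - q₀ j| ≤ r := fun j _ => by rw [sub_self, abs_zero]; exact hr.le
  have hIcc : ∀ s ∈ Icc a b, |s - q₀ k| ≤ r := fun s hs => by
    rw [abs_le]; constructor <;> linarith [hs.1, hs.2]
  -- along the line
  have hφc : ContinuousOn (fun s => v (Function.update q₀ k s)) (Icc a b) := by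
    refine hv.comp ?_ fun s hs => hrO (upd_mem hr.le hself (hIcc s hs))
    exact (continuous_updr k q₀).continuousOn
  have hφi : InjOn (fun s => v (Function.update q₀ k s)) (Icc a b) := by
    intro s hs s' hs' h
    have h1 : vert k v (Function.update q₀ k s) = vert k v (Function.update q₀ k s') := by
      unfold vert
      rw [Function.update_idem, Function.update_idem]
      exact congrArg _ h
    have h2 := hi (hrO (upd_mem hr.le hself (hIcc s hs)))
      (hrO (upd_mem hr.le hself (hIcc s' hs'))) h1
    have h3 := congrFun h2 k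
    rwa [Function.update_self, Function.update_self] at h3
  have hq : Function.update q₀ k (q₀ k) = q₀ := Function.update_eq_self k q₀
  have hmem : ∀ s ∈ Icc a b, Function.update q₀ k s ∈ O := fun s hs =>
    hrO (upd_mem hr.le hself (hIcc s hs))
  have hyk : ∀ s, Function.update (vert k v q₀) k s = Function.update q₀ k s := fun s => by
    unfold vert
    rw [Function.update_idem]
  -- continuity in `y`
  have hcy : ∀ s ∈ Icc a b,
      Tendsto (fun y : V => v (Function.update y k s) - y k) (𝓝 (vert k v q₀))
        (𝓝 (v (Function.update q₀ k s) - v q₀)) := by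
    intro s hs
    have h1 : ContinuousAt v (Function.update q₀ k s) := hv.continuousAt (hO.mem_nhds (hmem s hs))
    have h2 : Tendsto (fun y : V => Function.update y k s) (𝓝 (vert k v q₀))
        (𝓝 (Function.update q₀ k s)) := by
      have h3 : Continuous fun y : V => Function.update y k s :=
        continuous_id.update k continuous_const
      have h4 := h3.tendsto (vert k v q₀)
      rwa [hyk] at h4
    have h3 : Tendsto (fun y : V => y k) (𝓝 (vert k v q₀)) (𝓝 (v q₀)) := by
      have h4 := (continuous_apply (A := fun _ : Fin 3 => ℝ) k).tendsto (vert k v q₀)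
      have h5 : vert k v q₀ k = v q₀ := by unfold vert; rw [Function.update_self]
      rwa [h5] at h4
    exact (h1.tendsto.comp h2).sub h3
  have hnear : ∀ᶠ y in 𝓝 (vert k v q₀), ∀ j, j ≠ k → |y j - q₀ j| ≤ r := by
    rw [eventually_all]
    intro j
    by_cases hj : j = k
    · exact Eventually.of_forall fun y h => absurd hj h
    · have h4 := (continuous_apply (A := fun _ : Fin 3 => ℝ) j).tendsto (vert k v q₀)
      have h5 : vert k v q₀ j = q₀ j := by unfold vert; rw [Function.update_of_ne hj]
      rw [h5] at h4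
      filter_upwards [h4.eventually (Metric.closedBall_mem_nhds _ hr)] with y hy _
      rw [← Real.dist_eq]
      exact hy
  have hyc : ∀ y : V, (∀ j, j ≠ k → |y j - q₀ j| ≤ r) →
      ContinuousOn (fun s => v (Function.update y k s)) (Icc a b) := by
    intro y hy
    refine hv.comp ?_ fun s hs => hrO (upd_mem hr.le hy (hIcc s hs))
    exact (continuous_updr k y).continuousOn
  have hfin : ∀ y : V, (∀ j, j ≠ k → |y j - q₀ j| ≤ r) → ∀ s ∈ Icc a b,
      v (Function.update y k s) = y k → ∃ q ∈ closedBall q₀ r, vert k v q = y := by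
    intro y hy s hs h
    refine ⟨Function.update y k s, upd_mem hr.le hy (hIcc s hs), ?_⟩
    unfold vert
    rw [h, Function.update_idem, Function.update_eq_self]
  have haI : a ∈ Icc a b := ⟨le_rfl, hab⟩
  have hbI : b ∈ Icc a b := ⟨hab, le_rfl⟩
  have hqI : q₀ k ∈ Icc a b := ⟨by linarith, by linarith⟩
  rcases hφc.strictMonoOn_of_injOn_Icc' hab hφi with hm | hm
  · have h1 : v (Function.update q₀ k a) < v q₀ := by
      have := hm haI hqI (by linarith)
      simpa only [hq] using this
    have h2 : v q₀ < v (Function.update q₀ k b) := by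
      have := hm hqI hbI (by linarith)
      simpa only [hq] using this
    filter_upwards [hnear, (hcy a haI).eventually (gt_mem_nhds (sub_neg.2 h1)),
      (hcy b hbI).eventually (lt_mem_nhds (sub_pos.2 h2))] with y hy h3 h4
    obtain ⟨s, hs, hs'⟩ := intermediate_value_Icc hab (hyc y hy)
      (show y k ∈ Icc _ _ from ⟨(sub_neg.1 h3).le, (sub_pos.1 h4).le⟩)
    exact hfin y hy s hs hs'
  · have h1 : v q₀ < v (Function.update q₀ k a) := by
      have := hm haI hqI (by linarith)
      simpa only [hq] using this
    have h2 : v (Function.update q₀ k b) < v q₀ := by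
      have := hm hqI hbI (by linarith)
      simpa only [hq] using this
    filter_upwards [hnear, (hcy a haI).eventually (lt_mem_nhds (sub_pos.2 h1)),
      (hcy b hbI).eventually (gt_mem_nhds (sub_neg.2 h2))] with y hy h3 h4
    obtain ⟨s, hs, hs'⟩ := intermediate_value_Icc' hab (hyc y hy)
      (show y k ∈ Icc _ _ from ⟨(sub_neg.1 h4).le, (sub_pos.1 h3).le⟩)
    exact hfin y hy s hs hs'

/-- **a continuous injective change of one coordinate is a homeomorphism onto an open set** -/
theorem vert_homeo {O : Set V} (hO : IsOpen O) {v : V → ℝ} (hv : ContinuousOn v O) {k : Fin 3}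
    (hi : InjOn (vert k v) O) : IsOpen (vert k v '' O) ∧ IsHomeo O (vert k v '' O) (vert k v) := by
  refine ⟨?_, ?_⟩
  · rw [isOpen_iff_mem_nhds]
    rintro _ ⟨q₀, hq, rfl⟩
    obtain ⟨r, hr, hrO⟩ := nhds_basis_closedBall.mem_iff.1 (hO.mem_nhds hq)
    filter_upwards [vert_nhds hO hv hi hr hrO] with y hy
    obtain ⟨q, hq', rfl⟩ := hy
    exact ⟨q, hrO hq', rfl⟩
  · classical
    have hinv : ∀ x ∈ O, Function.invFunOn (vert k v) O (vert k v x) = x := fun x hx =>
      hi.leftInvOn_invFunOn hx
    refine ⟨Function.invFunOn (vert k v) O, ⟨fun x hx => ⟨⟨x, hx, rfl⟩, hinv x hx⟩, ?_⟩, ?_, ?_⟩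
    · rintro _ ⟨x, hx, rfl⟩
      rw [hinv x hx]
      exact ⟨hx, rfl⟩
    · have h1 : ContinuousOn (fun q : V => ((q, v q) : V × ℝ)) O := continuousOn_id.prodMk hv
      exact (continuous_upd k).comp_continuousOn h1
    · rintro _ ⟨q₀, hq, rfl⟩
      apply ContinuousAt.continuousWithinAt
      rw [ContinuousAt, hinv q₀ hq]
      obtain ⟨r, hr, hrO⟩ := nhds_basis_closedBall.mem_iff.1 (hO.mem_nhds hq)
      rw [nhds_basis_closedBall.tendsto_right_iff]
      intro ρ hρ
      have h2 : closedBall q₀ (min r ρ) ⊆ O :=
        (closedBall_subset_closedBall (min_le_left _ _)).trans hrO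
      filter_upwards [vert_nhds hO hv hi (lt_min hr hρ) h2] with y hy
      obtain ⟨q, hq', rfl⟩ := hy
      rw [hinv q (h2 hq')]
      exact closedBall_subset_closedBall (min_le_right _ _) hq'

end Vale.Agent.P073.R2.H268
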